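import Vale.Agent.P091.AD.H813.Noise
import Vale.Agent.P091.AD.H880.Thin

/-!
# P091, block AD, row 12b, part 2: absorption of the noise (helper813)
-/

set_option autoImplicit false
set_option linter.unusedSectionVars false

open Finset Real
open Vale.Agent.P065.Ent

noncomputable section

namespace Vale.Agent.P091.AD

section absorb
variable {G : Type} [AddCommGroup G] [Fintype G]

theorem H_id (ρ : G → ℝ) : H ρ (fun t => t) = ∑ t, ρ t * (- log (ρ t)) := by
  classical
  unfold H
  refine sum_congr rfl fun t _ => ?_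
  have : Pr ρ (fun t => t) t = ρ t := by
    unfold Pr
    rw [sum_ite_eq' univ t, if_pos (mem_univ t)]
  rw [this]

/-- the noise has large entropy -/
theorem le_H_of_density {ρ : G → ℝ} (hρ : IsProb ρ) {D : ℝ}
    (hd : ∀ t, (Fintype.card G : ℝ) * ρ t ≤ exp D) :
    log (Fintype.card G) - D ≤ H ρ (fun t => t) := by
  have hG := card_pos' (G := G)
  rw [H_id]
  calc log (Fintype.card G) - D = ∑ t, ρ t * (log (Fintype.card G) - D) := by
        rw [← sum_mul, hρ.sum, one_mul]
    _ ≤ _ := by
        refine sum_le_sum fun t _ => ?_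
        rcases (hρ.nonneg t).eq_or_lt with h0 | h0
        · rw [← h0]; simp
        · refine mul_le_mul_of_nonneg_left ?_ h0.le
          have h1 := log_le_log (by positivity) (hd t)
          rw [log_exp, log_mul hG.ne' h0.ne'] at h1
          linarith

/-- `I (y; y + t) = H (y + t) - H (t)` -/
theorem I_add_noise {ν ρ : G → ℝ} (hν : IsProb ν) (hρ : IsProb ρ) :
    I (fun w : G × G => ν w.1 * ρ w.2) (fun w => w.1) (fun w => w.1 + w.2) (fun _ => ())
      = H (fun w : G × G => ν w.1 * ρ w.2) (fun w => w.1 + w.2) - H ρ (fun t => t) := by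
  have hp : IsProb (fun w : G × G => ν w.1 * ρ w.2) := mul_isProb hν hρ
  rw [I_symm]
  unfold I
  rw [Hc_const hp]
  congr 1
  have h1 := H880.Hc_prod_indep (L := G) hρ hν (fun t : G => t) (fun _ : G => ())
  rw [Hc_const hρ] at h1
  rw [← h1]
  have h2 := H880.Hc_equiv (Equiv.prodComm G G) (fun w : G × G => ρ w.1 * ν w.2)
    (fun w => w.1) (fun w => ((), w.2))
  rw [← h2]
  have h3 : (fun w : G × G => ρ ((Equiv.prodComm G G) w).1 * ν ((Equiv.prodComm G G) w).2)
      = fun w : G × G => ν w.1 * ρ w.2 := by
    funext w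
    show ρ w.2 * ν w.1 = _
    ring
  rw [h3]
  unfold Hc
  congr 1
  · refine H_congr ?_ ?_
    · intro w w' h
      have h4 : w.1 + w.2 = w'.1 + w'.2 := (Prod.mk.inj h).1
      have h5 : w.1 = w'.1 := (Prod.mk.inj (Prod.mk.inj h).2).1
      have h6 : w.2 = w'.2 := by rw [h5] at h4; exact add_left_cancel h4
      show (w.2, ((), w.1)) = (w'.2, ((), w'.1))
      rw [h5, h6]
    · intro w w' h
      have h4 : w.2 = w'.2 := (Prod.mk.inj h).1
      have h5 : w.1 = w'.1 := (Prod.mk.inj (Prod.mk.inj h).2).2
      show (w.1 + w.2, (w.1, ())) = (w'.1 + w'.2, (w'.1, ()))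
      rw [h5, h4]
  · refine H_congr ?_ ?_
    · intro w w' h
      have h5 : w.1 = w'.1 := (Prod.mk.inj h).1
      show ((), w.1) = ((), w'.1)
      rw [h5]
    · intro w w' h
      have h5 : w.1 = w'.1 := (Prod.mk.inj h).2
      show (w.1, ()) = (w'.1, ())
      rw [h5]

theorem k4_le_one (lam : Law (AddChar G ℂ)) (t : G) : lam.k4 t ≤ 1 := by
  rw [← lam.prob.sum]
  refine sum_le_sum fun ω _ => mul_le_of_le_one_right (lam.prob.nonneg ω) ?_
  exact pow_le_one₀ (norm_nonneg _) (lam.norm_kap_le _ _)

theorem Theta_nonneg (lam : Law (AddChar G ℂ)) (p : ℕ) : 0 ≤ lam.Theta p := by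
  rw [Law.Theta_eq]
  have h1 : av (fun t => lam.k4 t ^ p) ≤ 1 := by
    unfold av
    refine div_le_one_of_le₀ ?_ card_pos'.le
    calc ∑ t, lam.k4 t ^ p ≤ ∑ _t : G, (1 : ℝ) :=
          sum_le_sum fun t _ => pow_le_one₀ (lam.k4_nonneg t) (k4_le_one lam t)
      _ = _ := by simp
  have h2 := log_nonpos (lam.av_pos p).le h1
  linarith

/-- the mass of `{1 - m > b}` -/
theorem markov_m (lam : Law (AddChar G ℂ)) {ρ : G → ℝ} (hρ : IsProb ρ) {ε b : ℝ} (hb : 0 < b)
    (hn : ∑ t, ρ t * (1 - lam.m t) ≤ ε) :
    1 - ε / b ≤ ∑ t, (open Classical in if 1 - lam.m t ≤ b then ρ t else 0) := by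
  classical
  have h1 : ∑ t, (if 1 - lam.m t ≤ b then 0 else ρ t) ≤ ε / b := by
    rw [le_div_iff₀ hb, sum_mul]
    refine le_trans (sum_le_sum fun t _ => ?_) hn
    split_ifs with h
    · rw [zero_mul]
      exact mul_nonneg (hρ.nonneg t) (by linarith [lam.m_le_one t])
    · exact mul_le_mul_of_nonneg_left (not_le.mp h).le (hρ.nonneg t)
  have h2 : ∑ t, (if 1 - lam.m t ≤ b then ρ t else 0) + ∑ t, (if 1 - lam.m t ≤ b then 0 else ρ t)
      = 1 := by
    rw [← sum_add_distrib, ← hρ.sum]
    exact sum_congr rfl fun t _ => by split_ifs <;> ring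
  linarith

/-- **Absorption**: noise that almost does not move `m`, of density at most `e^D`, has small
information on a point carried by `{m ≥ s}`. -/
theorem absorb_le (lam : Law (AddChar G ℂ)) {ρ ν : G → ℝ} (hρ : IsProb ρ) (hν : IsProb ν)
    {s ε D : ℝ} (P : ℕ) (hs : 0 < s) (y0 : G) (hcar : ∀ y, 0 < ν y → s ≤ lam.m (y - y0))
    (hn : ∑ t, ρ t * (1 - lam.m t) ≤ ε) (hd : ∀ t, (Fintype.card G : ℝ) * ρ t ≤ exp D) :
    I (fun w : G × G => ν w.1 * ρ w.2) (fun w => w.1) (fun w => w.1 + w.2) (fun _ => ())
      ≤ D - lam.Theta P + 2 * P * log (2 / s) + 8 * ε / s ^ 2 * lam.Theta P + log 2 := by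
  classical
  have hG := card_pos' (G := G)
  have hp : IsProb (fun w : G × G => ν w.1 * ρ w.2) := mul_isProb hν hρ
  rw [I_add_noise hν hρ]
  have hH := le_H_of_density hρ hd
  set V : Finset G := univ.filter fun t : G => s / 2 ≤ lam.m t with hV
  set δ := 8 * ε / s ^ 2 with hδ
  set Θ := lam.Theta P with hΘ
  have hΘ0 : 0 ≤ Θ := Theta_nonneg lam P
  have hε0 : 0 ≤ ε := le_trans (sum_nonneg fun t _ =>
    mul_nonneg (hρ.nonneg t) (by linarith [lam.m_le_one t])) hn
  have hδ0 : 0 ≤ δ := by positivity
  -- the size of V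
  have hcard : (V.card : ℝ) / (Fintype.card G : ℝ) * ((s / 2) ^ 2) ^ P ≤ exp (- Θ) := by
    have h := lam.card_le_av (s := s / 2) (by positivity) P
    rw [hΘ, Law.Theta_eq, neg_neg, exp_log (lam.av_pos P)]
    exact h
  set W := Θ - 2 * P * log (2 / s) with hW
  have hVW : 0 < (V.card : ℝ) → W ≤ log ((Fintype.card G : ℝ) / V.card) := by
    intro hv
    have h1 := log_le_log (by positivity) hcard
    rw [log_exp, log_mul (by positivity) (by positivity), log_div hv.ne' hG.ne', log_pow, log_pow,
      log_div hs.ne' (by norm_num)] at h1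
    rw [log_div hG.ne' hv.ne', hW, log_div (by norm_num) hs.ne']
    push_cast at h1
    linarith
  -- the mass of V
  set X : G × G → G := fun w => w.1 + w.2 with hX
  have hmass : 1 - δ ≤ ∑ w : G × G, ν w.1 * ρ w.2 * (if X w - y0 ∈ V then 1 else 0) := by
    have h1 := markov_m lam hρ (b := s ^ 2 / 8) (by positivity) hn
    have h2 : ε / (s ^ 2 / 8) = δ := by rw [hδ]; field_simp
    rw [h2] at h1
    refine h1.trans ?_
    rw [Fintype.sum_prod_type]
    calc ∑ t, (if 1 - lam.m t ≤ s ^ 2 / 8 then ρ t else 0)
        = ∑ y, ν y * ∑ t, (if 1 - lam.m t ≤ s ^ 2 / 8 then ρ t else 0) := by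
          rw [← sum_mul, hν.sum, one_mul]
      _ ≤ _ := by
          refine sum_le_sum fun y _ => ?_
          rcases (hν.nonneg y).eq_or_lt with h0 | h0
          · have h00 : ν y = 0 := h0.symm
            rw [h00, zero_mul]
            exact sum_nonneg fun t _ => mul_nonneg (mul_nonneg (hν.nonneg _) (hρ.nonneg _))
              (by split_ifs <;> norm_num)
          · rw [mul_sum]
            refine sum_le_sum fun t _ => ?_
            by_cases h3 : 1 - lam.m t ≤ s ^ 2 / 8
            · rw [if_pos h3, if_pos, mul_one]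
              rw [hV, mem_filter]
              refine ⟨mem_univ _, ?_⟩
              have h4 := lam.krein (y - y0) t
              have h5 : y - y0 + t = X (y, t) - y0 := by
                show y - y0 + t = y + t - y0
                abel
              rw [h5] at h4
              have h6 := hcar y h0
              by_contra hc
              push Not at hc
              nlinarith
            · rw [if_neg h3, mul_zero]
              split_ifs
              · rw [mul_one]; exact mul_nonneg h0.le (hρ.nonneg t)
              · rw [mul_zero]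
  -- Gibbs
  have hgibbs : H (fun w : G × G => ν w.1 * ρ w.2) X ≤ log 2 + log (Fintype.card G) - W + δ * Θ := by
    set q : Unit → G → ℝ := fun _ g => (1 / 2) * (if g - y0 ∈ V then 1 / (V.card : ℝ) else 0)
      + (1 / 2) * (1 / (Fintype.card G : ℝ)) with hq
    have hq0 : ∀ g, 0 < q () g := by
      intro g
      simp only [hq]
      have : 0 ≤ (1 / 2 : ℝ) * (if g - y0 ∈ V then 1 / (V.card : ℝ) else 0) := by
        split_ifs <;> positivity
      have : 0 < (1 / 2 : ℝ) * (1 / (Fintype.card G : ℝ)) := by positivity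
      linarith
    have hqs : ∑ g, q () g ≤ 1 := by
      simp only [hq]
      rw [sum_add_distrib, ← mul_sum, ← mul_sum]
      have h1 : ∑ g : G, (if g - y0 ∈ V then 1 / (V.card : ℝ) else 0) ≤ 1 := by
        have e := (Equiv.subRight y0).sum_comp (fun g : G => if g ∈ V then 1 / (V.card : ℝ) else 0)
        have e' : ∑ g : G, (if g - y0 ∈ V then 1 / (V.card : ℝ) else 0)
            = ∑ g : G, (if g ∈ V then 1 / (V.card : ℝ) else 0) := e
        rw [e', sum_ite_mem, univ_inter, sum_const, nsmul_eq_mul, mul_one_div]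
        exact div_self_le_one _
      have h2 : ∑ _g : G, 1 / (Fintype.card G : ℝ) = 1 := by
        rw [sum_const, card_univ, nsmul_eq_mul, mul_one_div, div_self hG.ne']
      rw [h2]
      linarith
    have g1 := gibbs hp X (fun _ => ()) q (fun ω _ => hq0 _) (fun ω x _ => (hq0 _).le)
      (fun ω => (sum_le_sum_of_subset_of_nonneg (subset_univ _) fun x _ _ => (hq0 x).le).trans hqs)
    rw [Hc_const hp] at g1
    refine g1.trans ?_
    -- pointwise
    have h1 : ∀ w : G × G, ν w.1 * ρ w.2 * (- log (q () (X w)))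
        ≤ ν w.1 * ρ w.2 * (log 2 + log (Fintype.card G)) - (ν w.1 * ρ w.2 *
          (if X w - y0 ∈ V then 1 else 0)) * log ((Fintype.card G : ℝ) / V.card) := by
      intro w
      have hw0 : 0 ≤ ν w.1 * ρ w.2 := hp.nonneg w
      rw [mul_assoc (ν w.1 * ρ w.2) (if X w - y0 ∈ V then (1 : ℝ) else 0), ← mul_sub]
      refine mul_le_mul_of_nonneg_left ?_ hw0
      by_cases hm : X w - y0 ∈ V
      · have hv : (0 : ℝ) < V.card := by
          exact_mod_cast card_pos.mpr ⟨_, hm⟩
        rw [if_pos hm, one_mul]
        have h2 : (1 / 2 : ℝ) * (1 / (V.card : ℝ)) ≤ q () (X w) := by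
          simp only [hq]
          rw [if_pos hm]
          have : 0 < (1 / 2 : ℝ) * (1 / (Fintype.card G : ℝ)) := by positivity
          linarith
        have h3 := log_le_log (by positivity) h2
        rw [log_mul (by norm_num) (by positivity), one_div, one_div, log_inv, log_inv] at h3
        rw [log_div hG.ne' hv.ne']
        linarith
      · rw [if_neg hm, zero_mul, sub_zero]
        have h2 : (1 / 2 : ℝ) * (1 / (Fintype.card G : ℝ)) ≤ q () (X w) := by
          simp only [hq]
          rw [if_neg hm]
          linarith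
        have h3 := log_le_log (by positivity) h2
        rw [log_mul (by norm_num) (by positivity), one_div, one_div, log_inv, log_inv] at h3
        linarith
    refine (sum_le_sum fun w _ => h1 w).trans ?_
    rw [sum_sub_distrib, ← sum_mul, ← sum_mul, hp.sum, one_mul]
    set M := ∑ w : G × G, ν w.1 * ρ w.2 * (if X w - y0 ∈ V then (1 : ℝ) else 0) with hM
    have hM1 : 0 ≤ M := sum_nonneg fun w _ => by
      have := hp.nonneg w
      split_ifs
      · rw [mul_one]; exact this
      · rw [mul_zero]
    suffices h : W - δ * Θ ≤ M * log ((Fintype.card G : ℝ) / V.card) by linarith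
    have hWΘ : s ≤ 2 → W ≤ Θ := by
      intro h
      have : 0 ≤ log (2 / s) := log_nonneg (by rw [le_div_iff₀ hs]; linarith)
      have : 0 ≤ 2 * (P : ℝ) * log (2 / s) := by positivity
      linarith
    have hs1 : s ≤ 2 := by
      -- `ν` charges a point with `s ≤ m ≤ 1`
      by_contra hc
      push Not at hc
      have : ∑ y, ν y = 0 := sum_eq_zero fun y _ => by
        rcases (hν.nonneg y).eq_or_lt with h0 | h0
        · exact h0.symm
        · have := hcar y h0
          have := lam.m_le_one (y - y0)
          linarith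
      rw [hν.sum] at this
      exact one_ne_zero this
    have hWΘ' := hWΘ hs1
    have hδΘ : 0 ≤ δ * Θ := mul_nonneg hδ0 hΘ0
    rcases Nat.eq_zero_or_pos V.card with hv | hv
    · -- `V` empty
      have hM0 : M = 0 := by
        rw [hM]
        refine sum_eq_zero fun w _ => ?_
        rw [card_eq_zero] at hv
        rw [if_neg (by rw [hv]; exact notMem_empty _), mul_zero]
      rw [hM0, zero_mul]
      rw [hM0] at hmass
      have h1 : 1 ≤ δ := by linarith
      nlinarith
    · have hv' : (0 : ℝ) < V.card := by exact_mod_cast hv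
      have h1 := hVW hv'
      have h2 : 0 ≤ log ((Fintype.card G : ℝ) / V.card) := by
        refine log_nonneg ?_
        rw [le_div_iff₀ hv', one_mul]
        exact_mod_cast card_le_univ V
      rcases le_total W 0 with h0 | h0
      · have := mul_nonneg hM1 h2
        linarith
      · rcases le_total 1 δ with h3 | h3
        · have := mul_nonneg hM1 h2
          nlinarith
        · calc W - δ * Θ ≤ (1 - δ) * W := by nlinarith
            _ ≤ (1 - δ) * log ((Fintype.card G : ℝ) / V.card) :=
              mul_le_mul_of_nonneg_left h1 (by linarith)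
            _ ≤ _ := mul_le_mul_of_nonneg_right hmass h2
  rw [hW] at hgibbs
  linarith

end absorb

end Vale.Agent.P091.AD
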