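import Vale.Agent.P091.AD.Base

/-!
# P091, block AD, row 12a: letters in the dual of a finite abelian group (helper813)

`G` is a finite abelian group, letters are characters `AddChar G ℂ`.
* `Law.kap lam l t = E[a(t) | z = l]`, `Law.m lam t = E |κ_z(t)|² = E e(N, t)`,
  `Law.k4 lam t = E |κ_z(t)|⁴`, `Law.ah lam t = E a(t)`.
* `exp_neg_Theta`: `∑ β^p(u) cp(u) = U-average of k4 ^ p` (Parseval).
* `theta_le`, (0.1): `Θ(p) ≤ R + 10 p log (2/σ)`.
-/

set_option autoImplicit false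
set_option linter.unusedSectionVars false

open Finset Real
open Vale.Agent.P065.Ent

noncomputable section

namespace Vale.Agent.P091.AD

/-! ## Conditional expectation of complex functions -/

section cexp
variable {Ω Z : Type*} [Fintype Ω]

open Classical in
/-- `E[f | z = l]` -/
def cexp (μ : Ω → ℝ) (z : Ω → Z) (f : Ω → ℂ) (l : Z) : ℂ :=
  (∑ ω, if z ω = l then (μ ω : ℂ) * f ω else 0) / (Pr μ z l : ℂ)

/-- tower property -/
theorem cexp_tower {μ : Ω → ℝ} (hμ : IsProb μ) (z : Ω → Z) (f : Ω → ℂ) (h : Z → ℂ) :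
    ∑ ω, (μ ω : ℂ) * (cexp μ z f (z ω) * h (z ω)) = ∑ ω, (μ ω : ℂ) * (f ω * h (z ω)) := by
  classical
  have h1 : ∀ ω, (μ ω : ℂ) * (cexp μ z f (z ω) * h (z ω))
      = ∑ ω', if z ω' = z ω then (μ ω : ℂ) / (Pr μ z (z ω') : ℂ) * ((μ ω' : ℂ) * (f ω' * h (z ω')))
          else 0 := by
    intro ω
    unfold cexp
    rw [div_mul_eq_mul_div, sum_mul, sum_div, mul_sum]
    refine sum_congr rfl fun ω' _ => ?_
    by_cases e : z ω' = z ω
    · rw [if_pos e, if_pos e, e]; ring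
    · rw [if_neg e, if_neg e]; ring
  rw [sum_congr rfl fun ω _ => h1 ω, sum_comm]
  refine sum_congr rfl fun ω' _ => ?_
  have h2 : ∑ ω, (if z ω' = z ω then (μ ω : ℂ) / (Pr μ z (z ω') : ℂ)
      * ((μ ω' : ℂ) * (f ω' * h (z ω'))) else 0)
      = ((Pr μ z (z ω') : ℝ) : ℂ) / (Pr μ z (z ω') : ℂ) * ((μ ω' : ℂ) * (f ω' * h (z ω'))) := by
    have h3 : ((Pr μ z (z ω') : ℝ) : ℂ) = ∑ ω, (if z ω' = z ω then (μ ω : ℂ) else 0) := by
      unfold Pr
      push_cast
      refine sum_congr rfl fun ω _ => ?_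
      by_cases e : z ω' = z ω
      · rw [if_pos e, if_pos e.symm]
      · rw [if_neg e, if_neg fun e' => e e'.symm]; simp
    have h5 : ((Pr μ z (z ω') : ℝ) : ℂ) / (Pr μ z (z ω') : ℂ) * ((μ ω' : ℂ) * (f ω' * h (z ω')))
        = (∑ ω, (if z ω' = z ω then (μ ω : ℂ) else 0)) *
          ((1 / (Pr μ z (z ω') : ℂ)) * ((μ ω' : ℂ) * (f ω' * h (z ω')))) := by
      rw [← h3]; ring
    rw [h5, sum_mul]
    refine sum_congr rfl fun ω _ => ?_
    by_cases e : z ω' = z ω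
    · rw [if_pos e, if_pos e]; ring
    · rw [if_neg e, if_neg e]; ring
  rw [h2]
  rcases eq_or_ne (Pr μ z (z ω')) 0 with h0 | h0
  · have : μ ω' = 0 := le_antisymm (h0 ▸ le_Pr hμ z ω') (hμ.nonneg ω')
    simp [this]
  · rw [div_self (by exact_mod_cast h0), one_mul]

/-- the copy: `E f(ω) conj g(ω')` over two copies with the same label -/
theorem sum_cc {μ : Ω → ℝ} (z : Ω → Z) (f g : Ω → ℂ) :
    ∑ u : Ω × Ω, (cc μ z u : ℂ) * (f u.1 * (starRingEnd ℂ) (g u.2))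
      = ∑ ω, (μ ω : ℂ) * (f ω * (starRingEnd ℂ) (cexp μ z g (z ω))) := by
  classical
  rw [Fintype.sum_prod_type]
  refine sum_congr rfl fun ω _ => ?_
  unfold cexp
  rw [map_div₀, map_sum, Complex.conj_ofReal, mul_div_assoc', mul_div_assoc', mul_sum, mul_sum,
    sum_div]
  refine sum_congr rfl fun ω' _ => ?_
  unfold cc
  simp only
  by_cases e : z ω = z ω'
  · rw [if_pos e, if_pos e.symm]
    push_cast
    rw [map_mul, Complex.conj_ofReal]
    ring
  · rw [if_neg e, if_neg fun e' => e e'.symm]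
    simp

/-- the diagonal case -/
theorem sum_cc_self {μ : Ω → ℝ} (hμ : IsProb μ) (z : Ω → Z) (f : Ω → ℂ) :
    ∑ u : Ω × Ω, (cc μ z u : ℂ) * (f u.1 * (starRingEnd ℂ) (f u.2))
      = ((∑ ω, μ ω * ‖cexp μ z f (z ω)‖ ^ 2 : ℝ) : ℂ) := by
  rw [sum_cc, ← cexp_tower hμ z f (fun l => (starRingEnd ℂ) (cexp μ z f l))]
  push_cast
  refine sum_congr rfl fun ω _ => ?_
  rw [Complex.mul_conj, Complex.normSq_eq_norm_sq]
  push_cast
  ring

theorem norm_cexp_le {μ : Ω → ℝ} (hμ : IsProb μ) (z : Ω → Z) {f : Ω → ℂ} (hf : ∀ ω, ‖f ω‖ ≤ 1)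
    (l : Z) : ‖cexp μ z f l‖ ≤ 1 := by
  classical
  unfold cexp
  rw [norm_div, Complex.norm_real, Real.norm_of_nonneg (Pr_nonneg hμ z l)]
  refine div_le_one_of_le₀ ?_ (Pr_nonneg hμ z l)
  refine (norm_sum_le _ _).trans ?_
  unfold Pr
  refine sum_le_sum fun ω _ => ?_
  split_ifs
  · rw [norm_mul, Complex.norm_real, Real.norm_of_nonneg (hμ.nonneg ω)]
    exact mul_le_of_le_one_right (hμ.nonneg ω) (hf ω)
  · simp

/-- Jensen: `‖E f‖² ≤ E ‖E[f|z]‖²` -/
theorem norm_sq_le_cexp {μ : Ω → ℝ} (hμ : IsProb μ) (z : Ω → Z) (f : Ω → ℂ) :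
    ‖∑ ω, (μ ω : ℂ) * f ω‖ ^ 2 ≤ ∑ ω, μ ω * ‖cexp μ z f (z ω)‖ ^ 2 := by
  have h1 := cexp_tower hμ z f (fun _ => 1)
  simp only [mul_one] at h1
  rw [← h1]
  have h2 : ‖∑ ω, (μ ω : ℂ) * cexp μ z f (z ω)‖ ≤ ∑ ω, √(μ ω) * (√(μ ω) * ‖cexp μ z f (z ω)‖) := by
    refine (norm_sum_le _ _).trans (sum_le_sum fun ω _ => ?_)
    rw [norm_mul, Complex.norm_real, Real.norm_of_nonneg (hμ.nonneg ω), ← mul_assoc,
      Real.mul_self_sqrt (hμ.nonneg ω)]
  have h3 := sum_mul_sq_le_sq_mul_sq univ (fun ω => √(μ ω)) (fun ω => √(μ ω) * ‖cexp μ z f (z ω)‖)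
  have h4 : ∑ ω, √(μ ω) ^ 2 = 1 := by
    rw [← hμ.sum]
    exact sum_congr rfl fun ω _ => sq_sqrt (hμ.nonneg ω)
  have h5 : ∑ ω, (√(μ ω) * ‖cexp μ z f (z ω)‖) ^ 2 = ∑ ω, μ ω * ‖cexp μ z f (z ω)‖ ^ 2 :=
    sum_congr rfl fun ω _ => by rw [mul_pow, sq_sqrt (hμ.nonneg ω)]
  rw [h4, h5, one_mul] at h3
  exact (pow_le_pow_left₀ (norm_nonneg _) h2 2).trans h3

end cexp

/-! ## Words -/

section words
variable {L Z : Type*} [Fintype L]

/-- the law of the labels of a word is a product -/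
theorem Pr_lb {ι : Type*} [Fintype ι] [DecidableEq ι] (b : L → ℝ) (zl : L → Z) (l : ι → Z) :
    Pr (pw b) (lb zl) l = ∏ i, Pr b zl (l i) := by
  classical
  unfold Pr
  have h := Finset.prod_univ_sum (fun _ : ι => (univ : Finset L))
    (fun i x => if zl x = l i then b x else 0)
  rw [Fintype.piFinset_univ] at h
  rw [h]
  refine sum_congr rfl fun u _ => ?_
  by_cases e : lb zl u = l
  · rw [if_pos e]
    unfold pw
    refine prod_congr rfl fun i _ => ?_
    exact (if_pos (show zl (u i) = l i from congrFun e i)).symm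
  · rw [if_neg e]
    have : ∃ i, zl (u i) ≠ l i := by
      by_contra hc
      push Not at hc
      exact e (funext hc)
    obtain ⟨i, hi⟩ := this
    exact (prod_eq_zero (mem_univ i) (if_neg hi)).symm

end words

/-! ## Laws with letters in the dual group -/

section dual
variable {G : Type} [AddCommGroup G] [Fintype G]

/-- `U`-average over the group -/
def av (f : G → ℝ) : ℝ := (∑ t, f t) / (Fintype.card G : ℝ)

theorem card_pos' : (0 : ℝ) < (Fintype.card G : ℝ) := by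
  exact_mod_cast Fintype.card_pos_iff.mpr ⟨(0 : G)⟩

/-- orthogonality -/
theorem sum_char (x : AddChar G ℂ) [Decidable (x = 0)] :
    ∑ t, x t = if x = 0 then (Fintype.card G : ℂ) else 0 := AddChar.sum_eq_ite x

namespace Law
variable (lam : Law (AddChar G ℂ))

/-- `κ_l(t) = E[a(t) | z = l]` -/
def kap (l : lam.Z) (t : G) : ℂ := cexp lam.μ lam.z (fun ω => lam.a ω t) l

/-- `m(t) = E |κ_z(t)|²` -/
def m (t : G) : ℝ := ∑ ω, lam.μ ω * ‖lam.kap (lam.z ω) t‖ ^ 2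

/-- `E |κ_z(t)|⁴` -/
def k4 (t : G) : ℝ := ∑ ω, lam.μ ω * ‖lam.kap (lam.z ω) t‖ ^ 4

/-- `α^(t) = E a(t)` -/
def ah (t : G) : ℂ := ∑ ω, (lam.μ ω : ℂ) * lam.a ω t

theorem norm_kap_le (l : lam.Z) (t : G) : ‖lam.kap l t‖ ≤ 1 :=
  norm_cexp_le lam.prob _ (fun _ => (AddChar.norm_apply _ _).le) _

theorem m_nonneg (t : G) : 0 ≤ lam.m t :=
  sum_nonneg fun ω _ => mul_nonneg (lam.prob.nonneg ω) (by positivity)

theorem m_le_one (t : G) : lam.m t ≤ 1 := by
  rw [← lam.prob.sum]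
  refine sum_le_sum fun ω _ => mul_le_of_le_one_right (lam.prob.nonneg ω) ?_
  exact pow_le_one₀ (norm_nonneg _) (lam.norm_kap_le _ _)

theorem k4_nonneg (t : G) : 0 ≤ lam.k4 t :=
  sum_nonneg fun ω _ => mul_nonneg (lam.prob.nonneg ω) (by positivity)

/-- `m² ≤ k4` -/
theorem m_sq_le (t : G) : lam.m t ^ 2 ≤ lam.k4 t := by
  have h3 := sum_mul_sq_le_sq_mul_sq univ (fun ω => √(lam.μ ω))
    (fun ω => √(lam.μ ω) * ‖lam.kap (lam.z ω) t‖ ^ 2)
  have h4 : ∑ ω, √(lam.μ ω) ^ 2 = 1 := by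
    rw [← lam.prob.sum]
    exact sum_congr rfl fun ω _ => sq_sqrt (lam.prob.nonneg ω)
  have h5 : ∑ ω, (√(lam.μ ω) * ‖lam.kap (lam.z ω) t‖ ^ 2) ^ 2 = lam.k4 t :=
    sum_congr rfl fun ω _ => by rw [mul_pow, sq_sqrt (lam.prob.nonneg ω)]; ring
  have h6 : ∑ ω, √(lam.μ ω) * (√(lam.μ ω) * ‖lam.kap (lam.z ω) t‖ ^ 2) = lam.m t :=
    sum_congr rfl fun ω _ => by rw [← mul_assoc, Real.mul_self_sqrt (lam.prob.nonneg ω)]
  rw [h4, h5, h6, one_mul] at h3
  exact h3

/-- `|α^|² ≤ m` -/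
theorem ah_sq_le (t : G) : ‖lam.ah t‖ ^ 2 ≤ lam.m t :=
  norm_sq_le_cexp lam.prob lam.z (fun ω => lam.a ω t)

theorem norm_ah_le (t : G) : ‖lam.ah t‖ ≤ 1 := by
  have h1 := (lam.ah_sq_le t).trans (lam.m_le_one t)
  nlinarith [norm_nonneg (lam.ah t)]

theorem conj_char (x : AddChar G ℂ) (t : G) : (starRingEnd ℂ) (x t) = x (-t) :=
  (AddChar.map_neg_eq_conj x t).symm

/-- `E e(N, t) = m(t)` -/
theorem sum_beta_N (t : G) : ∑ u, (lam.beta u : ℂ) * lam.N u t = (lam.m t : ℂ) := by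
  have h := sum_cc_self lam.prob lam.z (fun ω => lam.a ω t)
  unfold m kap
  rw [← h]
  refine sum_congr rfl fun u _ => ?_
  unfold N beta
  rw [AddChar.sub_apply, conj_char]

/-- the label of a letter has the law of `z` -/
theorem sum_beta_fst (F : lam.Ω → ℂ) : ∑ u, (lam.beta u : ℂ) * F u.1
    = ∑ ω, (lam.μ ω : ℂ) * F ω := by
  classical
  have h := sum_cc (μ := lam.μ) lam.z F (fun _ => 1)
  have h1 : ∀ ω, cexp lam.μ lam.z (fun _ => 1) (lam.z ω) = 1 ∨ lam.μ ω = 0 := by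
    intro ω
    rcases eq_or_ne (Pr lam.μ lam.z (lam.z ω)) 0 with h0 | h0
    · right
      exact le_antisymm (h0 ▸ le_Pr lam.prob lam.z ω) (lam.prob.nonneg ω)
    · left
      unfold cexp
      rw [div_eq_one_iff_eq (by exact_mod_cast h0)]
      unfold Pr
      push_cast
      exact sum_congr rfl fun ω' _ => by split_ifs <;> simp
  simp only [map_one, mul_one] at h
  unfold beta
  rw [h]
  refine sum_congr rfl fun ω _ => ?_
  rcases h1 ω with h2 | h2
  · rw [h2]; simp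
  · rw [h2]; simp

theorem Pr_beta_zl (l : lam.Z) : Pr lam.beta lam.zl l = Pr lam.μ lam.z l := by
  classical
  have h := lam.sum_beta_fst (fun ω => if lam.z ω = l then 1 else 0)
  have h1 : ((Pr lam.beta lam.zl l : ℝ) : ℂ) = ((Pr lam.μ lam.z l : ℝ) : ℂ) := by
    unfold Pr zl
    push_cast
    simp only [mul_ite, mul_one, mul_zero] at h
    convert h using 1 <;> exact sum_congr rfl fun _ _ => by split_ifs <;> simp
  exact_mod_cast h1

/-- `E[e(N,t) | z = l] = |κ_l(t)|²` -/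
theorem cexp_beta (l : lam.Z) (hl : 0 < Pr lam.μ lam.z l) (t : G) :
    cexp lam.beta lam.zl (fun u => lam.N u t) l = ((‖lam.kap l t‖ ^ 2 : ℝ) : ℂ) := by
  classical
  have h1 := sum_cc (μ := lam.μ) lam.z (fun ω => if lam.z ω = l then lam.a ω t else 0)
    (fun ω => lam.a ω t)
  have h2 : ∑ u : lam.Lt, (if lam.zl u = l then (lam.beta u : ℂ) * lam.N u t else 0)
      = ∑ ω, (lam.μ ω : ℂ) * ((if lam.z ω = l then lam.a ω t else 0) *
        (starRingEnd ℂ) (lam.kap (lam.z ω) t)) := by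
    unfold kap
    rw [← h1]
    refine sum_congr rfl fun u _ => ?_
    unfold N beta zl
    rw [AddChar.sub_apply, conj_char]
    split_ifs <;> simp
  have h3 : ∑ ω, (lam.μ ω : ℂ) * ((if lam.z ω = l then lam.a ω t else 0) *
        (starRingEnd ℂ) (lam.kap (lam.z ω) t))
      = (∑ ω, if lam.z ω = l then (lam.μ ω : ℂ) * lam.a ω t else 0) *
        (starRingEnd ℂ) (lam.kap l t) := by
    rw [sum_mul]
    refine sum_congr rfl fun ω _ => ?_
    split_ifs with e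
    · rw [e]; ring
    · simp
  have h4 : (∑ ω, if lam.z ω = l then (lam.μ ω : ℂ) * lam.a ω t else 0)
      = lam.kap l t * (Pr lam.μ lam.z l : ℂ) := by
    unfold kap cexp
    rw [div_mul_cancel₀ _ (by exact_mod_cast hl.ne')]
  unfold cexp
  rw [Pr_beta_zl, h2, h3, h4, mul_right_comm, mul_div_assoc, div_self (by exact_mod_cast hl.ne'),
    mul_one, Complex.mul_conj, Complex.normSq_eq_norm_sq]

/-- `E e(N - N', t) = k4(t)` over two copies of a letter with the same label -/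
theorem sum_cc_beta (t : G) : ∑ w : lam.Lt × lam.Lt,
    (cc lam.beta lam.zl w : ℂ) * (lam.N w.1 - lam.N w.2) t = (lam.k4 t : ℂ) := by
  have h := sum_cc_self lam.beta_isProb lam.zl (fun u => lam.N u t)
  have h1 : ∑ w : lam.Lt × lam.Lt, (cc lam.beta lam.zl w : ℂ) * (lam.N w.1 - lam.N w.2) t
      = ((∑ u, lam.beta u * ‖cexp lam.beta lam.zl (fun u => lam.N u t) (lam.zl u)‖ ^ 2 : ℝ) : ℂ) := by
    rw [← h]
    refine sum_congr rfl fun w _ => ?_
    rw [AddChar.sub_apply, conj_char]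
  rw [h1]
  have h2 : ∀ u : lam.Lt, lam.beta u * ‖cexp lam.beta lam.zl (fun u => lam.N u t) (lam.zl u)‖ ^ 2
      = lam.beta u * ‖lam.kap (lam.z u.1) t‖ ^ 4 := by
    intro u
    rcases (lam.beta_isProb.nonneg u).eq_or_lt with h0 | h0
    · rw [← h0]; simp
    · have h3 : 0 < Pr lam.μ lam.z (lam.zl u) := by
        rw [← Pr_beta_zl]; exact Pr_pos lam.beta_isProb lam.zl h0
      rw [lam.cexp_beta _ h3, Complex.norm_real, Real.norm_of_nonneg (by positivity)]
      unfold zl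
      ring
  rw [sum_congr rfl fun u _ => h2 u]
  have h3 := lam.sum_beta_fst (fun ω => ((‖lam.kap (lam.z ω) t‖ ^ 4 : ℝ) : ℂ))
  unfold k4
  push_cast at h3 ⊢
  exact h3

/-- the expected collision probability as a sum over pairs of words -/
theorem sum_pw_cp (p : ℕ) : ∑ u : Fin p → lam.Lt, pw lam.beta u * lam.cp p u
    = ∑ w : Fin p → lam.Lt × lam.Lt, (open Classical in
        if ∑ i, (lam.N (w i).1 - lam.N (w i).2) = 0 then ∏ i, cc lam.beta lam.zl (w i) else 0) := by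
  classical
  have e := (Equiv.arrowProdEquivProdArrow (Fin p) (fun _ => lam.Lt) (fun _ => lam.Lt)).symm.sum_comp
    (fun w : Fin p → lam.Lt × lam.Lt =>
      if ∑ i, (lam.N (w i).1 - lam.N (w i).2) = 0 then ∏ i, cc lam.beta lam.zl (w i) else 0)
  rw [← e, Fintype.sum_prod_type]
  refine sum_congr rfl fun u _ => ?_
  unfold cp
  rw [Pr_lb]
  unfold Pr
  rw [mul_div_assoc', mul_sum, sum_div]
  refine sum_congr rfl fun v _ => ?_
  show _ = if ∑ i, (lam.N (u i) - lam.N (v i)) = 0 then ∏ i, cc lam.beta lam.zl (u i, v i) else 0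
  by_cases h1 : ∑ i, (lam.N (u i) - lam.N (v i)) = 0
  · have h1' : sm lam.N v = sm lam.N u := by
      unfold sm
      rw [sum_sub_distrib, sub_eq_zero] at h1
      exact h1.symm
    rw [if_pos h1]
    by_cases h2 : lb lam.zl v = lb lam.zl u
    · rw [if_pos (show (sm lam.N v, lb lam.zl v) = (sm lam.N u, lb lam.zl u) by rw [h1', h2])]
      unfold pw
      rw [← prod_mul_distrib]
      show _ / ∏ i, Pr lam.beta lam.zl (lb lam.zl u i) = _
      rw [← prod_div_distrib]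
      refine prod_congr rfl fun i _ => ?_
      unfold cc
      have h3 : lam.zl (v i) = lam.zl (u i) := congrFun h2 i
      simp only
      rw [if_pos h3.symm]
      rfl
    · rw [if_neg fun h => h2 (Prod.mk.inj h).2, mul_zero, zero_div]
      have : ∃ i, lam.zl (v i) ≠ lam.zl (u i) := by
        by_contra hc
        push Not at hc
        exact h2 (funext hc)
      obtain ⟨i, hi⟩ := this
      refine (prod_eq_zero (mem_univ i) ?_).symm
      unfold cc
      simp only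
      exact if_neg fun e => hi e.symm
  · rw [if_neg h1, if_neg, mul_zero, zero_div]
    intro h
    apply h1
    have h2 : sm lam.N v = sm lam.N u := (Prod.mk.inj h).1
    unfold sm at h2
    rw [sum_sub_distrib, h2, sub_self]

/-- **Parseval**: `E ∑_x π_{z..}(x)² = ∫ (E_z |κ_z|⁴)^p dU` -/
theorem exp_neg_Theta (p : ℕ) : ∑ u : Fin p → lam.Lt, pw lam.beta u * lam.cp p u
    = av (fun t => lam.k4 t ^ p) := by
  classical
  rw [sum_pw_cp]
  have hc : (Fintype.card G : ℂ) ≠ 0 := by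
    have := card_pos' (G := G)
    exact_mod_cast this.ne'
  have h1 : ∀ w : Fin p → lam.Lt × lam.Lt,
      ((if ∑ i, (lam.N (w i).1 - lam.N (w i).2) = 0 then ∏ i, cc lam.beta lam.zl (w i) else 0 : ℝ) : ℂ)
      = (∑ t : G, ∏ i, ((cc lam.beta lam.zl (w i) : ℂ) * (lam.N (w i).1 - lam.N (w i).2) t))
        / (Fintype.card G : ℂ) := by
    intro w
    have h2 : ∀ t : G, ∏ i, ((cc lam.beta lam.zl (w i) : ℂ) * (lam.N (w i).1 - lam.N (w i).2) t)
        = (∏ i, (cc lam.beta lam.zl (w i) : ℂ)) * (∑ i, (lam.N (w i).1 - lam.N (w i).2)) t := by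
      intro t
      rw [prod_mul_distrib, AddChar.sum_apply]
    rw [sum_congr rfl fun t _ => h2 t, ← mul_sum, sum_char]
    split_ifs
    · push_cast
      rw [mul_div_assoc, div_self hc, mul_one]
    · simp
  have h3 : ((∑ w : Fin p → lam.Lt × lam.Lt,
      (if ∑ i, (lam.N (w i).1 - lam.N (w i).2) = 0 then ∏ i, cc lam.beta lam.zl (w i) else 0) : ℝ) : ℂ)
      = ((av (fun t => lam.k4 t ^ p) : ℝ) : ℂ) := by
    rw [Complex.ofReal_sum, sum_congr rfl fun w _ => h1 w, ← sum_div, sum_comm]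
    unfold av
    push_cast
    congr 1
    refine sum_congr rfl fun t _ => ?_
    have h4 := Finset.prod_univ_sum (fun _ : Fin p => (univ : Finset (lam.Lt × lam.Lt)))
      (fun _ w => (cc lam.beta lam.zl w : ℂ) * (lam.N w.1 - lam.N w.2) t)
    rw [Fintype.piFinset_univ] at h4
    rw [← h4, prod_const, card_univ, Fintype.card_fin, sum_cc_beta]
  exact_mod_cast h3

/-- averaging against a probability vector -/
theorem exists_ge_avg {ι : Type*} [Fintype ι] {μ : ι → ℝ} (hμ : IsProb μ) (F : ι → ℝ) :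
    ∃ i, ∑ j, μ j * F j ≤ F i := by
  by_contra hc
  push Not at hc
  set M := ∑ j, μ j * F j with hM
  have h1 : ∑ j, μ j * (M - F j) = 0 := by
    have : ∀ j, μ j * (M - F j) = μ j * M - μ j * F j := fun j => by ring
    rw [sum_congr rfl fun j _ => this j, sum_sub_distrib, ← sum_mul, hμ.sum, one_mul, ← hM,
      sub_self]
  rw [sum_eq_zero_iff_of_nonneg fun j _ => mul_nonneg (hμ.nonneg j) (sub_nonneg.mpr (hc j).le)] at h1
  have h2 : ∑ j, μ j = 0 := sum_eq_zero fun j hj => by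
    rcases mul_eq_zero.mp (h1 j hj) with h | h
    · exact h
    · have := hc j
      linarith
  rw [hμ.sum] at h2
  exact one_ne_zero h2

/-- some translate of `{|α^| ≥ σ²/2}` has `μ`-mass at least `σ²/2` -/
theorem exists_shift {μ : G → ℝ} (hμ : IsProb μ) {σ : ℝ} (hσ : 0 ≤ σ)
    (hb : ∀ ω, σ ≤ ‖∑ y, (μ y : ℂ) * lam.a ω y‖) :
    ∃ y0, σ ^ 2 / 2 ≤ ∑ y, (open Classical in if σ ^ 2 / 2 ≤ ‖lam.ah (y - y0)‖ then μ y else 0) := by
  classical
  -- the energy identity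
  have h1 : ∑ y0, (μ y0 : ℂ) * ∑ y, (μ y : ℂ) * lam.ah (y - y0)
      = ((∑ ω, lam.μ ω * ‖∑ y, (μ y : ℂ) * lam.a ω y‖ ^ 2 : ℝ) : ℂ) := by
    have h2 : ∀ y0 y, (μ y0 : ℂ) * ((μ y : ℂ) * lam.ah (y - y0))
        = ∑ ω, (lam.μ ω : ℂ) * (((μ y : ℂ) * lam.a ω y) *
          (starRingEnd ℂ) ((μ y0 : ℂ) * lam.a ω y0)) := by
      intro y0 y
      unfold ah
      rw [mul_sum, mul_sum]
      refine sum_congr rfl fun ω _ => ?_
      rw [map_mul, Complex.conj_ofReal, conj_char, sub_eq_add_neg, AddChar.map_add_eq_mul]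
      ring
    calc ∑ y0, (μ y0 : ℂ) * ∑ y, (μ y : ℂ) * lam.ah (y - y0)
        = ∑ y0, ∑ y, ∑ ω, (lam.μ ω : ℂ) * (((μ y : ℂ) * lam.a ω y) *
          (starRingEnd ℂ) ((μ y0 : ℂ) * lam.a ω y0)) := by
          refine sum_congr rfl fun y0 _ => ?_
          rw [mul_sum]
          exact sum_congr rfl fun y _ => h2 y0 y
      _ = ∑ ω, ∑ y0, ∑ y, (lam.μ ω : ℂ) * (((μ y : ℂ) * lam.a ω y) *
          (starRingEnd ℂ) ((μ y0 : ℂ) * lam.a ω y0)) := by
          rw [sum_congr rfl fun y0 _ => sum_comm, sum_comm]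
      _ = _ := by
          push_cast
          refine sum_congr rfl fun ω _ => ?_
          have h3 : ∀ y0, ∑ y, (lam.μ ω : ℂ) * (((μ y : ℂ) * lam.a ω y) *
              (starRingEnd ℂ) ((μ y0 : ℂ) * lam.a ω y0))
              = (lam.μ ω : ℂ) * ((∑ y, (μ y : ℂ) * lam.a ω y) *
              (starRingEnd ℂ) ((μ y0 : ℂ) * lam.a ω y0)) := by
            intro y0
            rw [sum_mul, mul_sum]
          rw [sum_congr rfl fun y0 _ => h3 y0, ← mul_sum, ← mul_sum, ← map_sum, Complex.mul_conj,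
            Complex.normSq_eq_norm_sq]
          push_cast
          rfl
  have h2 : σ ^ 2 ≤ ∑ y0, μ y0 * ∑ y, μ y * ‖lam.ah (y - y0)‖ := by
    have h3 : σ ^ 2 ≤ ∑ ω, lam.μ ω * ‖∑ y, (μ y : ℂ) * lam.a ω y‖ ^ 2 := by
      calc σ ^ 2 = ∑ ω, lam.μ ω * σ ^ 2 := by rw [← sum_mul, lam.prob.sum, one_mul]
        _ ≤ _ := sum_le_sum fun ω _ => mul_le_mul_of_nonneg_left
          (pow_le_pow_left₀ hσ (hb ω) 2) (lam.prob.nonneg ω)
    have h4 : ∑ ω, lam.μ ω * ‖∑ y, (μ y : ℂ) * lam.a ω y‖ ^ 2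
        ≤ ‖∑ y0, (μ y0 : ℂ) * ∑ y, (μ y : ℂ) * lam.ah (y - y0)‖ := by
      rw [h1, Complex.norm_real]
      exact Real.le_norm_self _
    refine h3.trans (h4.trans ((norm_sum_le _ _).trans (sum_le_sum fun y0 _ => ?_)))
    rw [norm_mul, Complex.norm_real, Real.norm_of_nonneg (hμ.nonneg y0)]
    refine mul_le_mul_of_nonneg_left ((norm_sum_le _ _).trans (sum_le_sum fun y _ => ?_))
      (hμ.nonneg y0)
    rw [norm_mul, Complex.norm_real, Real.norm_of_nonneg (hμ.nonneg y)]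
  obtain ⟨y0, hy0⟩ := exists_ge_avg hμ (fun y0 => ∑ y, μ y * ‖lam.ah (y - y0)‖)
  refine ⟨y0, ?_⟩
  have h3 : ∑ y, μ y * ‖lam.ah (y - y0)‖
      ≤ ∑ y, ((if σ ^ 2 / 2 ≤ ‖lam.ah (y - y0)‖ then μ y else 0) + μ y * (σ ^ 2 / 2)) := by
    refine sum_le_sum fun y _ => ?_
    split_ifs with h
    · have h5 : μ y * ‖lam.ah (y - y0)‖ ≤ μ y :=
        mul_le_of_le_one_right (hμ.nonneg y) (lam.norm_ah_le _)
      have h6 : 0 ≤ μ y * (σ ^ 2 / 2) := mul_nonneg (hμ.nonneg y) (by positivity)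
      linarith
    · rw [zero_add]
      exact mul_le_mul_of_nonneg_left (not_le.mp h).le (hμ.nonneg y)
  rw [sum_add_distrib, ← sum_mul, hμ.sum, one_mul] at h3
  linarith

/-- the same with `m`: `μ {y : m(y - y0) ≥ σ⁴/4} ≥ σ²/2` -/
theorem exists_shift_m {μ : G → ℝ} (hμ : IsProb μ) {σ : ℝ} (hσ : 0 ≤ σ)
    (hb : ∀ ω, σ ≤ ‖∑ y, (μ y : ℂ) * lam.a ω y‖) :
    ∃ y0, σ ^ 2 / 2 ≤ ∑ y, (open Classical in if σ ^ 4 / 4 ≤ lam.m (y - y0) then μ y else 0) := by
  classical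
  obtain ⟨y0, h0⟩ := lam.exists_shift hμ hσ hb
  refine ⟨y0, h0.trans (sum_le_sum fun y _ => ?_)⟩
  by_cases h : σ ^ 2 / 2 ≤ ‖lam.ah (y - y0)‖
  · rw [if_pos h, if_pos]
    calc σ ^ 4 / 4 = (σ ^ 2 / 2) ^ 2 := by ring
      _ ≤ ‖lam.ah (y - y0)‖ ^ 2 := pow_le_pow_left₀ (by positivity) h 2
      _ ≤ _ := lam.ah_sq_le _
  · rw [if_neg h]
    split_ifs
    · exact hμ.nonneg y
    · exact le_rfl

/-- `#{m ≥ s} (s²)^p ≤ |G| ∑ β^p cp` -/
theorem card_le_av {s : ℝ} (hs : 0 ≤ s) (p : ℕ) :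
    ((open Classical in (univ.filter fun t : G => s ≤ lam.m t).card : ℕ) : ℝ) /
      (Fintype.card G : ℝ) * (s ^ 2) ^ p ≤ av (fun t => lam.k4 t ^ p) := by
  classical
  unfold av
  rw [div_mul_eq_mul_div]
  refine div_le_div_of_nonneg_right ?_ card_pos'.le
  have h1 : ((univ.filter fun t : G => s ≤ lam.m t).card : ℝ) * (s ^ 2) ^ p
      = ∑ t ∈ univ.filter fun t : G => s ≤ lam.m t, (s ^ 2) ^ p := by
    rw [sum_const, nsmul_eq_mul]
  rw [h1]
  calc ∑ t ∈ univ.filter fun t : G => s ≤ lam.m t, (s ^ 2) ^ p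
      ≤ ∑ t ∈ univ.filter fun t : G => s ≤ lam.m t, lam.k4 t ^ p := by
        refine sum_le_sum fun t ht => pow_le_pow_left₀ (by positivity) ?_ p
        exact (pow_le_pow_left₀ hs (mem_filter.mp ht).2 2).trans (lam.m_sq_le t)
    _ ≤ _ := sum_le_sum_of_subset_of_nonneg (filter_subset _ _)
        fun t _ _ => pow_nonneg (lam.k4_nonneg t) p

/-- the average collision probability is positive -/
theorem av_pos (p : ℕ) : 0 < av (fun t => lam.k4 t ^ p) := by
  classical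
  have h1 : lam.m 0 = 1 := by
    have h := lam.sum_beta_N 0
    simp only [AddChar.map_zero_eq_one, mul_one] at h
    have h2 := lam.beta_isProb.sum
    have h3 : ((∑ u, lam.beta u : ℝ) : ℂ) = (lam.m 0 : ℂ) := by push_cast; exact h
    rw [h2] at h3
    exact_mod_cast h3.symm
  have h2 := lam.card_le_av (s := 1) zero_le_one p
  refine lt_of_lt_of_le ?_ h2
  have h3 : 0 < (univ.filter fun t : G => 1 ≤ lam.m t).card :=
    card_pos.mpr ⟨0, mem_filter.mpr ⟨mem_univ _, h1.ge⟩⟩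
  have h4 := card_pos' (G := G)
  have h5 : (0 : ℝ) < ((univ.filter fun t : G => 1 ≤ lam.m t).card : ℝ) := by exact_mod_cast h3
  positivity

theorem Theta_eq (p : ℕ) : lam.Theta p = - log (av (fun t => lam.k4 t ^ p)) := by
  unfold Theta
  rw [exp_neg_Theta]

/-- **(0.1)** `Θ(p) ≤ R + (8p + 2) log (2/σ)` -/
theorem theta_le {A : Finset (AddChar G ℂ)} {μ : G → ℝ} (hμ : IsProb μ) {σ R : ℝ} (hσ : 0 < σ)
    (hR : ∀ y, (Fintype.card G : ℝ) * μ y ≤ exp R)
    (hA : ∀ a ∈ A, σ ≤ ‖∑ y, (μ y : ℂ) * a y‖) (hlam : ∀ ω, lam.a ω ∈ A) (p : ℕ) :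
    lam.Theta p ≤ R + (8 * p + 2) * log (2 / σ) := by
  classical
  obtain ⟨y0, h0⟩ := lam.exists_shift_m hμ hσ.le fun ω => hA _ (hlam ω)
  have hG := card_pos' (G := G)
  have h1 : ∑ y, (if σ ^ 4 / 4 ≤ lam.m (y - y0) then μ y else 0)
      ≤ ((univ.filter fun t : G => σ ^ 4 / 4 ≤ lam.m t).card : ℝ) * (exp R / Fintype.card G) := by
    have e := (Equiv.subRight y0).symm.sum_comp
      (fun y => if σ ^ 4 / 4 ≤ lam.m (y - y0) then μ y else 0)
    rw [← e, ← nsmul_eq_mul, ← sum_const, sum_filter]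
    refine sum_le_sum fun t _ => ?_
    have e2 : (Equiv.subRight y0).symm t - y0 = t := by simp
    rw [e2]
    split_ifs
    · rw [le_div_iff₀ hG, mul_comm]; exact hR _
    · exact le_rfl
  have h2 := lam.card_le_av (s := σ ^ 4 / 4) (by positivity) p
  have h3 : σ ^ 2 / 2 * exp (- R) * (((σ ^ 4 / 4) ^ 2) ^ p) ≤ av (fun t => lam.k4 t ^ p) := by
    refine le_trans ?_ h2
    refine mul_le_mul_of_nonneg_right ?_ (by positivity)
    rw [le_div_iff₀ hG]
    have h4 := h0.trans h1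
    rw [mul_div_assoc', le_div_iff₀ hG] at h4
    rw [exp_neg]
    have h5 : σ ^ 2 / 2 * (exp R)⁻¹ * (Fintype.card G : ℝ) = (σ ^ 2 / 2 * Fintype.card G) / exp R := by
      field_simp
    rw [h5, div_le_iff₀ (exp_pos R)]
    exact h4
  rw [Theta_eq]
  have h4 := log_le_log (by positivity) h3
  have h5 : log (σ ^ 2 / 2 * exp (- R) * (((σ ^ 4 / 4) ^ 2) ^ p))
      = 2 * log σ - log 2 - R + p * (8 * log σ - 4 * log 2) := by
    have e4 : log (4 : ℝ) = 2 * log 2 := by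
      rw [show (4 : ℝ) = 2 ^ 2 by norm_num, log_pow]; norm_num
    rw [log_mul (by positivity) (by positivity), log_mul (by positivity) (by positivity),
      log_div (by positivity) (by positivity), log_exp, log_pow, log_pow, log_pow,
      log_div (by positivity) (by positivity), log_pow, e4]
    push_cast
    ring
  have h6 : log (2 / σ) = log 2 - log σ := log_div (by norm_num) hσ.ne'
  rw [h5] at h4
  rw [h6]
  have h7 : 0 < log 2 := log_pos (by norm_num)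
  have h8 : (0 : ℝ) ≤ p := Nat.cast_nonneg p
  nlinarith [mul_nonneg h8 h7.le]

end Law

end dual

end Vale.Agent.P091.AD
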