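import Vale.Agent.P091.AD.H813.Noise

/-!
# P091, block AD, row 12b, part 3: freezing the labels and truncating (helper813)
-/

set_option autoImplicit false
set_option linter.unusedSectionVars false

open Finset Real
open Vale.Agent.P065.Ent

noncomputable section

namespace Vale.Agent.P091.AD

section fib
variable {Ω α β : Type*} [Fintype Ω]

/-- averaging over the conditional law -/
theorem sum_fib [Fintype α] {μ : Ω → ℝ} (hμ : IsProb μ) (X : Ω → α) (Y : Ω → β)
    (F : β → α → ℝ) : ∑ ω, μ ω * ∑ x, Pr μ (fun ω => (X ω, Y ω)) (x, Y ω) / Pr μ Y (Y ω) * F (Y ω) x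
      = ∑ ω, μ ω * F (Y ω) (X ω) := by
  classical
  have h1 : ∀ ω, μ ω * ∑ x, Pr μ (fun ω => (X ω, Y ω)) (x, Y ω) / Pr μ Y (Y ω) * F (Y ω) x
      = ∑ ω', if Y ω = Y ω' then μ ω / Pr μ Y (Y ω') * (μ ω' * F (Y ω') (X ω')) else 0 := by
    intro ω
    have h2 : ∀ x, Pr μ (fun ω => (X ω, Y ω)) (x, Y ω) / Pr μ Y (Y ω) * F (Y ω) x
        = ∑ ω', if X ω' = x then (if Y ω' = Y ω then μ ω' / Pr μ Y (Y ω) * F (Y ω) x else 0)
          else 0 := by
      intro x
      unfold Pr
      rw [sum_div, sum_mul]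
      refine sum_congr rfl fun ω' _ => ?_
      by_cases e1 : X ω' = x
      · by_cases e2 : Y ω' = Y ω
        · simp [e1, e2]
        · simp [e1, e2]
      · simp [e1]
    rw [sum_congr rfl fun x _ => h2 x, sum_comm, mul_sum]
    refine sum_congr rfl fun ω' _ => ?_
    rw [sum_ite_eq univ (X ω'), if_pos (mem_univ _)]
    by_cases e2 : Y ω' = Y ω
    · rw [if_pos e2, if_pos e2.symm, e2]; ring
    · rw [if_neg e2, if_neg fun e => e2 e.symm, mul_zero]
  rw [sum_congr rfl fun ω _ => h1 ω, sum_comm]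
  refine sum_congr rfl fun ω' _ => ?_
  have h3 : ∑ ω, (if Y ω = Y ω' then μ ω / Pr μ Y (Y ω') * (μ ω' * F (Y ω') (X ω')) else 0)
      = Pr μ Y (Y ω') / Pr μ Y (Y ω') * (μ ω' * F (Y ω') (X ω')) := by
    have h4 : Pr μ Y (Y ω') = ∑ ω, (if Y ω = Y ω' then μ ω else 0) := by
      unfold Pr
      exact sum_congr rfl fun ω _ => by split_ifs <;> rfl
    have h5 : Pr μ Y (Y ω') / Pr μ Y (Y ω') * (μ ω' * F (Y ω') (X ω'))
        = (∑ ω, (if Y ω = Y ω' then μ ω else 0)) *
          (1 / Pr μ Y (Y ω') * (μ ω' * F (Y ω') (X ω'))) := by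
      rw [← h4]; ring
    rw [h5, sum_mul]
    refine sum_congr rfl fun ω _ => ?_
    split_ifs
    · ring
    · ring
  rw [h3]
  rcases eq_or_ne (Pr μ Y (Y ω')) 0 with h0 | h0
  · have : μ ω' = 0 := le_antisymm (h0 ▸ le_Pr hμ Y ω') (hμ.nonneg ω')
    rw [this]; ring
  · rw [div_self h0, one_mul]

/-- averaging: a charged point below the average -/
theorem exists_le_avg {ι : Type*} [Fintype ι] {μ : ι → ℝ} (hμ : IsProb μ) {F : ι → ℝ} {M : ℝ}
    (hM : ∑ j, μ j * F j ≤ M) : ∃ i, 0 < μ i ∧ F i ≤ M := by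
  by_contra hc
  push Not at hc
  have h1 : ∑ j, μ j * (F j - M) ≤ 0 := by
    have : ∀ j, μ j * (F j - M) = μ j * F j - μ j * M := fun j => by ring
    rw [sum_congr rfl fun j _ => this j, sum_sub_distrib, ← sum_mul, hμ.sum, one_mul]
    linarith
  have h2 : ∀ j, 0 ≤ μ j * (F j - M) := by
    intro j
    rcases (hμ.nonneg j).eq_or_lt with h0 | h0
    · rw [← h0, zero_mul]
    · exact mul_nonneg h0.le (sub_nonneg.mpr (hc j h0).le)
  have h3 := (sum_eq_zero_iff_of_nonneg fun j _ => h2 j).mp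
    (le_antisymm h1 (sum_nonneg fun j _ => h2 j))
  have h4 : ∑ j, μ j = 0 := sum_eq_zero fun j hj => by
    rcases (hμ.nonneg j).eq_or_lt with h0 | h0
    · exact h0.symm
    · have h5 := h3 j hj
      have h6 := hc j h0
      rcases mul_eq_zero.mp h5 with h | h
      · exact h
      · linarith
  rw [hμ.sum] at h4
  exact one_ne_zero h4

end fib

section freeze
variable {G : Type} [AddCommGroup G] [Fintype G]

namespace Law
variable (lam : Law (AddChar G ℂ))

/-- the law of `S_P` given the labels `l` -/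
def pil (P : ℕ) (l : Fin P → lam.Z) (x : AddChar G ℂ) : ℝ :=
  Pr (pw lam.beta) (fun u : Fin P → lam.Lt => (sm lam.N u, lb lam.zl u)) (x, l) /
    Pr (pw lam.beta) (lb lam.zl) l

theorem pil_nonneg (P : ℕ) (l : Fin P → lam.Z) (x : AddChar G ℂ) : 0 ≤ lam.pil P l x :=
  div_nonneg (Pr_nonneg (pw_isProb lam.beta_isProb) _ _) (Pr_nonneg (pw_isProb lam.beta_isProb) _ _)

theorem sum_pil (P : ℕ) (l : Fin P → lam.Z) (hl : 0 < Pr (pw lam.beta) (lb lam.zl) l) :
    ∑ x, lam.pil P l x = 1 := by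
  classical
  unfold pil
  rw [← sum_div]
  have h1 := sum_Pr_pair (pw lam.beta) (fun u : Fin P → lam.Lt => sm lam.N u) (lb lam.zl) l
  have h2 : ∑ x, Pr (pw lam.beta) (fun u : Fin P → lam.Lt => (sm lam.N u, lb lam.zl u)) (x, l)
      = ∑ x ∈ univ.image (fun u : Fin P → lam.Lt => sm lam.N u),
        Pr (pw lam.beta) (fun u : Fin P → lam.Lt => (sm lam.N u, lb lam.zl u)) (x, l) := by
    refine (sum_subset (subset_univ _) fun x _ hx => ?_).symm
    refine Pr_eq_zero _ fun u h => hx ?_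
    exact mem_image.mpr ⟨u, mem_univ u, (Prod.mk.inj h).1⟩
  rw [h2, h1, div_self hl.ne']

/-- excess of the self-information over `Θ` -/
def exc (P : ℕ) (l : Fin P → lam.Z) : ℝ :=
  ∑ x, lam.pil P l x * max 0 (- log (lam.pil P l x) - lam.Theta P)

theorem exc_nonneg (P : ℕ) (l : Fin P → lam.Z) : 0 ≤ lam.exc P l :=
  sum_nonneg fun x _ => mul_nonneg (lam.pil_nonneg P l x) (le_max_left _ _)

/-- the average excess is at most `B + 1` -/
theorem avg_exc (P : ℕ) {B : ℝ} (hh : lam.h P ≤ lam.Theta P + B) :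
    ∑ u, pw lam.beta u * lam.exc P (lb lam.zl u) ≤ B + 1 := by
  classical
  have hpw : IsProb (pw (ι := Fin P) lam.beta) := pw_isProb lam.beta_isProb
  have h1 := sum_fib hpw (fun u : Fin P → lam.Lt => sm lam.N u) (lb lam.zl)
    (fun l x => max 0 (- log (lam.pil P l x) - lam.Theta P))
  have h2 : ∑ u, pw lam.beta u * lam.exc P (lb lam.zl u)
      = ∑ u : Fin P → lam.Lt, pw lam.beta u * max 0 (- log (lam.cp P u) - lam.Theta P) := h1
  rw [h2]
  have h3 : lam.h P = ∑ u : Fin P → lam.Lt, pw lam.beta u * (- log (lam.cp P u)) := by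
    unfold h cp
    exact Hc_eq_sum hpw (sm lam.N) (lb lam.zl)
  have h4 : ∑ u : Fin P → lam.Lt, pw lam.beta u * (lam.cp P u * exp (lam.Theta P)) = 1 := by
    have h5 : ∀ u : Fin P → lam.Lt, pw lam.beta u * (lam.cp P u * exp (lam.Theta P))
        = (pw lam.beta u * lam.cp P u) * exp (lam.Theta P) := fun u => by ring
    rw [sum_congr rfl fun u _ => h5 u, ← sum_mul, exp_neg_Theta, Theta_eq, exp_neg,
      exp_log (lam.av_pos P), mul_inv_cancel₀ (lam.av_pos P).ne']
  have h5 : ∀ u : Fin P → lam.Lt, pw lam.beta u * max 0 (- log (lam.cp P u) - lam.Theta P)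
      ≤ pw lam.beta u * (- log (lam.cp P u)) - pw lam.beta u * lam.Theta P
        + pw lam.beta u * (lam.cp P u * exp (lam.Theta P)) := by
    intro u
    rcases (hpw.nonneg u).eq_or_lt with h00 | h00
    · rw [← h00]; simp
    rw [← mul_sub, ← mul_add]
    refine mul_le_mul_of_nonneg_left ?_ h00.le
    have h0 : 0 < lam.cp P u :=
      div_pos (Pr_pos hpw (fun v : Fin P → lam.Lt => (sm lam.N v, lb lam.zl v)) h00)
        (Pr_pos hpw (lb lam.zl) h00)
    have h6 : log (lam.cp P u * exp (lam.Theta P)) ≤ lam.cp P u * exp (lam.Theta P) :=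
      (log_le_sub_one_of_pos (by positivity)).trans (by linarith)
    rw [log_mul h0.ne' (exp_pos _).ne', log_exp] at h6
    have h7 : 0 ≤ lam.cp P u * exp (lam.Theta P) := by positivity
    refine max_le ?_ ?_
    · linarith
    · linarith
  refine (sum_le_sum fun u _ => h5 u).trans ?_
  rw [sum_add_distrib, sum_sub_distrib, ← h3, h4, ← sum_mul, hpw.sum, one_mul]
  linarith

/-- **the noise**: from flatness `h(P) ≤ Θ(P) + B` and a bound of the average increment energy of
`√π_l` to one noise on `G` -/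
theorem exists_noise (P : ℕ) {B ε1 : ℝ} (hB : 0 ≤ B) (hε : 0 < ε1)
    (hh : lam.h P ≤ lam.Theta P + B)
    (hJ : ∑ u : Fin P → lam.Lt, pw lam.beta u * lam.Jf (fun x => √(lam.pil P (lb lam.zl u) x))
      ≤ 2 * ε1) :
    ∃ ρ : G → ℝ, IsProb ρ ∧ ∑ t, ρ t * (1 - lam.m t) ≤ 4 * ε1 ∧
      ∀ t, (Fintype.card G : ℝ) * ρ t ≤ exp (lam.Theta P + 20 * (B + 1) + log 16) := by
  classical
  have hpw : IsProb (pw (ι := Fin P) lam.beta) := pw_isProb lam.beta_isProb
  -- the choice of the labels
  obtain ⟨u0, hu0, hF⟩ := exists_le_avg hpw (M := 2)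
    (F := fun u : Fin P → lam.Lt => lam.exc P (lb lam.zl u) / (B + 1) +
      lam.Jf (fun x => √(lam.pil P (lb lam.zl u) x)) / (2 * ε1)) (by
    have h1 : ∀ u : Fin P → lam.Lt, pw lam.beta u * (lam.exc P (lb lam.zl u) / (B + 1) +
        lam.Jf (fun x => √(lam.pil P (lb lam.zl u) x)) / (2 * ε1))
        = (pw lam.beta u * lam.exc P (lb lam.zl u)) / (B + 1) +
          (pw lam.beta u * lam.Jf (fun x => √(lam.pil P (lb lam.zl u) x))) / (2 * ε1) :=
      fun u => by ring
    rw [sum_congr rfl fun u _ => h1 u, sum_add_distrib, ← sum_div, ← sum_div]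
    have h2 := lam.avg_exc P hh
    have h3 : (∑ u : Fin P → lam.Lt, pw lam.beta u * lam.exc P (lb lam.zl u)) / (B + 1) ≤ 1 :=
      (div_le_one (by linarith)).mpr h2
    have h4 : (∑ u : Fin P → lam.Lt, pw lam.beta u *
        lam.Jf (fun x => √(lam.pil P (lb lam.zl u) x))) / (2 * ε1) ≤ 1 :=
      (div_le_one (by linarith)).mpr hJ
    linarith)
  set l := lb lam.zl u0 with hl
  have hl0 : 0 < Pr (pw lam.beta) (lb lam.zl) l := Pr_pos hpw (lb lam.zl) hu0
  set p := lam.pil P l with hp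
  set Θ := lam.Theta P with hΘ
  have hp0 : ∀ x, 0 ≤ p x := lam.pil_nonneg P l
  have hp1 : ∑ x, p x = 1 := lam.sum_pil P l hl0
  have hE : lam.exc P l ≤ 2 * (B + 1) := by
    have h1 : 0 ≤ lam.Jf (fun x => √(p x)) / (2 * ε1) := div_nonneg (lam.Jf_nonneg _) (by linarith)
    have h2 : lam.exc P l / (B + 1) ≤ 2 := by linarith
    rwa [div_le_iff₀ (by linarith)] at h2
  have hJ2 : lam.Jf (fun x => √(p x)) ≤ 4 * ε1 := by
    have h1 : 0 ≤ lam.exc P l / (B + 1) := div_nonneg (lam.exc_nonneg P l) (by linarith)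
    have h2 : lam.Jf (fun x => √(p x)) / (2 * ε1) ≤ 2 := by linarith
    rw [div_le_iff₀ (by linarith)] at h2
    linarith
  -- threshold
  set M := 20 * (B + 1) with hM
  have hM0 : 0 < M := by linarith
  set θ := exp (- (Θ + M)) / 16 with hθ
  have hθ0 : 0 < θ := by positivity
  set f : AddChar G ℂ → ℝ := fun x => max 0 (√(p x) - √θ) with hf
  -- the mass above the threshold
  have hbad : ∑ x, (if p x < 16 * θ then p x else 0) ≤ 1 / 10 := by
    have h1 : ∑ x, (if p x < 16 * θ then p x else 0) * M ≤ lam.exc P l := by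
      unfold exc
      refine sum_le_sum fun x _ => ?_
      split_ifs with h
      · rcases (hp0 x).eq_or_lt with h0 | h0
        · have h00 : p x = 0 := h0.symm
          have h01 : lam.pil P l x = 0 := h00
          rw [h00, h01, zero_mul, zero_mul]
        · refine mul_le_mul_of_nonneg_left ?_ h0.le
          have h2 : 16 * θ = exp (- (Θ + M)) := by rw [hθ]; ring
          rw [h2] at h
          have h3 := log_lt_log h0 h
          rw [log_exp] at h3
          refine le_trans ?_ (le_max_right _ _)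
          show M ≤ - log (p x) - Θ
          linarith
      · rw [zero_mul]
        exact mul_nonneg (lam.pil_nonneg P l x) (le_max_left _ _)
    rw [← sum_mul] at h1
    have h2 := h1.trans hE
    have h3 : (∑ x, (if p x < 16 * θ then p x else 0)) * M ≤ (1 / 10) * M := by
      rw [hM]; rw [hM] at h2; linarith
    exact le_of_mul_le_mul_right h3 hM0
  have hF2 : 1 / 2 ≤ ∑ x, f x ^ 2 := by
    have h1 : ∀ x, (9 / 16) * (p x - (if p x < 16 * θ then p x else 0)) ≤ f x ^ 2 := by
      intro x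
      split_ifs with h
      · rw [sub_self, mul_zero]; positivity
      · rw [sub_zero]
        push Not at h
        have h2 : √(16 * θ) ≤ √(p x) := sqrt_le_sqrt h
        have h3 : √(16 * θ) = 4 * √θ := by
          rw [sqrt_mul (by norm_num), show √(16 : ℝ) = 4 by
            rw [show (16 : ℝ) = 4 ^ 2 by norm_num]; exact sqrt_sq (by norm_num)]
        rw [h3] at h2
        have h4 : (3 / 4) * √(p x) ≤ f x := by
          refine le_trans ?_ (le_max_right _ _)
          linarith
        have h5 : (3 / 4 * √(p x)) ^ 2 ≤ f x ^ 2 :=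
          pow_le_pow_left₀ (by positivity) h4 2
        rw [mul_pow, sq_sqrt (hp0 x)] at h5
        linarith
    have h2 := sum_le_sum fun x (_ : x ∈ univ) => h1 x
    rw [← mul_sum, sum_sub_distrib, hp1] at h2
    linarith
  have hF0 : 0 < ∑ x, f x ^ 2 := by linarith
  refine ⟨rho f, rho_isProb hF0, ?_, fun t => ?_⟩
  · rw [lam.sum_rho_one_sub_m hF0, div_le_iff₀ (by linarith)]
    have h1 : lam.Jf f ≤ lam.Jf (fun x => √(p x)) := by
      unfold Jf
      refine sum_le_sum fun v _ => mul_le_mul_of_nonneg_left (sum_le_sum fun x _ => ?_)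
        (lam.beta_isProb.nonneg v)
      have h2 : |f (x - lam.a v.1) - f (x - lam.a v.2)|
          ≤ |√(p (x - lam.a v.1)) - √(p (x - lam.a v.2))| := by
        have := abs_max_sub_max_le_max (0 : ℝ) (√(p (x - lam.a v.1)) - √θ) 0
          (√(p (x - lam.a v.2)) - √θ)
        refine this.trans (le_of_eq ?_)
        rw [sub_self, abs_zero, sub_sub_sub_cancel_right]
        exact max_eq_right (abs_nonneg _)
      rw [← sq_abs, ← sq_abs (√(p (x - lam.a v.1)) - √(p (x - lam.a v.2)))]
      exact pow_le_pow_left₀ (abs_nonneg _) h2 2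
    nlinarith [hε.le]
  · -- the support of `f`
    set s := univ.filter fun x : AddChar G ℂ => θ < p x with hs
    have h1 := rho_le hF0 s (fun x hx => by
      rw [hs, mem_filter, not_and] at hx
      have h2 := hx (mem_univ x)
      push Not at h2
      show max 0 (√(p x) - √θ) = 0
      exact max_eq_left (by linarith [sqrt_le_sqrt h2])) t
    refine h1.trans ?_
    have h2 : (s.card : ℝ) * θ ≤ 1 := by
      rw [← hp1, ← nsmul_eq_mul, ← sum_const]
      calc ∑ x ∈ s, θ ≤ ∑ x ∈ s, p x := sum_le_sum fun x hx => (mem_filter.mp hx).2.le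
        _ ≤ _ := sum_le_sum_of_subset_of_nonneg (subset_univ s) fun x _ _ => hp0 x
    have h3 : (s.card : ℝ) ≤ 1 / θ := by rwa [le_div_iff₀ hθ0]
    refine h3.trans (le_of_eq ?_)
    rw [exp_add, exp_log (by norm_num), hθ, exp_neg]
    field_simp

end Law

end freeze

end Vale.Agent.P091.AD
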