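import Vale.Agent.P091.AD.H813.Dual

/-!
# P091, block AD, row 12: the final statement `ADplus` (helper813)

Approximate duality in every finite abelian group, in the form used by the T block: one labelled
law, one noise, one event.
-/

set_option autoImplicit false

open Finset Real
open Vale.Agent.P065.Ent

noncomputable section

namespace Vale.Agent.P091.AD

/-- `κ(R) = C (log R)^(-c)` -/
def kp (c C R : ℝ) : ℝ := C * (log R) ^ (-c)

open Classical in
/-- the output of approximate duality for a law `μ` on `G` and a set `A` of characters -/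
structure IsUnit12 {G : Type} [AddCommGroup G] [Fintype G] (A : Finset (AddChar G ℂ)) (μ : G → ℝ)
    (σ R κ : ℝ) (lam : Law (AddChar G ℂ)) (y0 : G) (ρ : G → ℝ) : Prop where
  prob : IsProb ρ
  cost : lam.costLe A (κ * R)
  noise : ∑ t, ρ t * (1 - lam.m t) ≤ κ
  event : σ ^ 2 / 2 ≤ ∑ y, (if σ ^ 4 / 4 ≤ lam.m (y - y0) then μ y else 0)
  absorb : ∀ ν : G → ℝ, IsProb ν → (∀ y, 0 < ν y → σ ^ 4 / 4 ≤ lam.m (y - y0)) →
    I (fun w : G × G => ν w.1 * ρ w.2) (fun w => w.1) (fun w => w.1 + w.2) (fun _ => ()) ≤ κ * R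

/-- **AD+** (no side information) -/
def ADplus : Prop := ∃ c C R0 : ℝ, 0 < c ∧ 0 < C ∧ 1 < R0 ∧
  ∀ (G : Type) [AddCommGroup G] [Fintype G] (A : Finset (AddChar G ℂ)) (μ : G → ℝ) (σ R : ℝ),
    R0 ≤ R → (log R) ^ (-c) ≤ σ → A.Nonempty → IsProb μ →
    (∀ y, (Fintype.card G : ℝ) * μ y ≤ exp R) → (∀ a ∈ A, σ ≤ ‖∑ y, (μ y : ℂ) * a y‖) →
    ∃ (lam : Law (AddChar G ℂ)) (y0 : G) (ρ : G → ℝ), IsUnit12 A μ σ R (kp c C R) lam y0 ρ

end Vale.Agent.P091.AD
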