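import Vale.Agent.P091.AD.H813.Absorb
import Vale.Agent.P091.AD.H813.Freeze
import Vale.Agent.P091.AD.H813.Plus

/-!
# P091, block AD, row 12: assembly `adplus_of : Core → JLe → ADplus` (helper813)
-/

set_option autoImplicit false
set_option linter.unusedSectionVars false

open Finset Real
open Vale.Agent.P065.Ent

noncomputable section

namespace Vale.Agent.P091.AD

/-- the average increment energy of `√π_l` is at most twice the slope (356: `J_le`) -/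
def JLe : Prop := ∀ (G : Type) [AddCommGroup G] [Fintype G] (lam : Law (AddChar G ℂ)) (P : ℕ),
  ∑ u : Fin P → lam.Lt, pw lam.beta u * lam.Jf (fun x => √(lam.pil P (lb lam.zl u) x))
    ≤ 2 * (lam.h (P + 1) - lam.h P)

/-! ## Parseval on the group side -/

section count
variable {G : Type} [AddCommGroup G] [Fintype G]

theorem sum_norm_hat (μ : G → ℝ) : ∑ x : AddChar G ℂ, ‖∑ y, (μ y : ℂ) * x y‖ ^ 2
    = (Fintype.card G : ℝ) * ∑ y, μ y ^ 2 := by
  classical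
  have h1 : ∀ x : AddChar G ℂ, ((‖∑ y, (μ y : ℂ) * x y‖ ^ 2 : ℝ) : ℂ)
      = ∑ y, ∑ y', ((μ y : ℂ) * (μ y' : ℂ)) * x (y - y') := by
    intro x
    have h2 : ((‖∑ y, (μ y : ℂ) * x y‖ ^ 2 : ℝ) : ℂ)
        = (∑ y, (μ y : ℂ) * x y) * (starRingEnd ℂ) (∑ y, (μ y : ℂ) * x y) := by
      rw [Complex.mul_conj, Complex.normSq_eq_norm_sq]
    rw [h2, map_sum, sum_mul_sum]
    refine sum_congr rfl fun y _ => sum_congr rfl fun y' _ => ?_
    rw [map_mul, Complex.conj_ofReal, Law.conj_char, sub_eq_add_neg, AddChar.map_add_eq_mul]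
    ring
  have h3 : ((∑ x : AddChar G ℂ, ‖∑ y, (μ y : ℂ) * x y‖ ^ 2 : ℝ) : ℂ)
      = (((Fintype.card G : ℝ) * ∑ y, μ y ^ 2 : ℝ) : ℂ) := by
    rw [Complex.ofReal_sum, sum_congr rfl fun x _ => h1 x, sum_comm]
    push_cast
    rw [mul_sum]
    refine sum_congr rfl fun y _ => ?_
    rw [sum_comm, sum_eq_single y]
    · rw [← mul_sum, sub_self, AddChar.sum_apply_eq_ite, if_pos rfl]; ring
    · intro y' _ hy
      rw [← mul_sum, AddChar.sum_apply_eq_ite, if_neg (sub_ne_zero.mpr hy.symm), mul_zero]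
    · intro h
      exact absurd (mem_univ y) h
  exact_mod_cast h3

/-- the number of biased characters -/
theorem card_biased_le {A : Finset (AddChar G ℂ)} {μ : G → ℝ} (hμ : IsProb μ) {σ R : ℝ}
    (hσ : 0 < σ) (hR : ∀ y, (Fintype.card G : ℝ) * μ y ≤ exp R)
    (hA : ∀ a ∈ A, σ ≤ ‖∑ y, (μ y : ℂ) * a y‖) : (A.card : ℝ) * σ ^ 2 ≤ exp R := by
  classical
  have h1 : (A.card : ℝ) * σ ^ 2 ≤ ∑ x : AddChar G ℂ, ‖∑ y, (μ y : ℂ) * x y‖ ^ 2 := by
    rw [← nsmul_eq_mul, ← sum_const]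
    calc ∑ a ∈ A, σ ^ 2 ≤ ∑ a ∈ A, ‖∑ y, (μ y : ℂ) * a y‖ ^ 2 :=
          sum_le_sum fun a ha => pow_le_pow_left₀ hσ.le (hA a ha) 2
      _ ≤ _ := sum_le_sum_of_subset_of_nonneg (subset_univ A) fun x _ _ => by positivity
  rw [sum_norm_hat] at h1
  refine h1.trans ?_
  rw [mul_sum]
  calc ∑ y, (Fintype.card G : ℝ) * μ y ^ 2 = ∑ y, ((Fintype.card G : ℝ) * μ y) * μ y :=
        sum_congr rfl fun y _ => by ring
    _ ≤ ∑ y, exp R * μ y := sum_le_sum fun y _ => mul_le_mul_of_nonneg_right (hR y) (hμ.nonneg y)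
    _ = exp R := by rw [← mul_sum, hμ.sum, mul_one]

end count

/-! ## Eventual facts -/

theorem ev_facts {c' : ℝ} (h0 : 0 < c') (h1 : c' ≤ 0.001) : ∃ R1 : ℝ, 1 < R1 ∧ ∀ R, R1 ≤ R →
    1 ≤ log R ∧ 8 * (log 8 + 4 * c' * log (log R)) ≤ (log R) ^ (0.01 - c') ∧
    5 * (log R) ^ (-c') ≤ 0.1 ∧ 24 * log R ≤ R := by
  have ha : 0 < 0.01 - c' := by linarith
  have e1 : ∀ᶠ X : ℝ in Filter.atTop, 1 ≤ X := Filter.eventually_ge_atTop 1
  have e2 : ∀ᶠ X : ℝ in Filter.atTop, ‖log X‖ ≤ (1 : ℝ) * ‖X ^ (0.01 - c')‖ :=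
    (isLittleO_log_rpow_atTop ha).bound one_pos
  have e3 : ∀ᶠ X : ℝ in Filter.atTop, 32 * log 8 ≤ X ^ (0.01 - c') :=
    (tendsto_rpow_atTop ha).eventually_ge_atTop _
  have e4 : ∀ᶠ X : ℝ in Filter.atTop, X ^ (-c') < 0.02 :=
    (tendsto_rpow_neg_atTop h0).eventually_lt_const (by norm_num)
  have e5 := Real.tendsto_log_atTop.eventually (e1.and (e2.and (e3.and e4)))
  have e6 : ∀ᶠ R : ℝ in Filter.atTop, ‖log R‖ ≤ (1 / 24 : ℝ) * ‖id R‖ :=
    isLittleO_log_id_atTop.bound (by norm_num)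
  obtain ⟨R1, hR1⟩ := Filter.eventually_atTop.mp (e5.and e6)
  refine ⟨max R1 2, lt_of_lt_of_le (by norm_num) (le_max_right _ _), fun R hR => ?_⟩
  obtain ⟨⟨f1, f2, f3, f4⟩, f6⟩ := hR1 R ((le_max_left _ _).trans hR)
  have hR2 : 2 ≤ R := (le_max_right _ _).trans hR
  refine ⟨f1, ?_, ?_, ?_⟩
  · have h2 : 0 ≤ log (log R) := log_nonneg f1
    have h3 : 0 ≤ (log R) ^ (0.01 - c') := rpow_nonneg (by linarith) _
    rw [Real.norm_of_nonneg h2, Real.norm_of_nonneg h3, one_mul] at f2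
    have h4 : 32 * c' * log (log R) ≤ 32 * c' * (log R) ^ (0.01 - c') :=
      mul_le_mul_of_nonneg_left f2 (by linarith)
    have h5 : 32 * c' * (log R) ^ (0.01 - c') ≤ (1 / 2) * (log R) ^ (0.01 - c') :=
      mul_le_mul_of_nonneg_right (by linarith) h3
    linarith
  · linarith
  · rw [Real.norm_of_nonneg (by linarith), id, Real.norm_of_nonneg (by linarith)] at f6
    linarith

/-! ## Real inequalities -/

theorem num_noise {C1 x y : ℝ} (h1 : 1 ≤ C1) (hxy : x ≤ y) (hy : 0 < y) :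
    4 * (C1 * x) ≤ (600 * C1 + 2) * y := by
  have h2 : C1 * x ≤ C1 * y := mul_le_mul_of_nonneg_left hxy (by linarith)
  have h3 : 0 < C1 * y := by positivity
  linarith

theorem num_cost {C C1 R x y : ℝ} (hC : C ≤ C1) (h1 : 1 ≤ C1) (hR : 0 < R) (hx : 0 < x)
    (hxy : x ≤ y) : C * R * x ≤ (600 * C1 + 2) * y * R := by
  have h2 : C * R * x ≤ C1 * R * x :=
    mul_le_mul_of_nonneg_right (mul_le_mul_of_nonneg_right hC hR.le) hx.le
  have h3 : C1 * R * x ≤ C1 * R * y := mul_le_mul_of_nonneg_left hxy (by positivity)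
  have h4 : 0 < C1 * R * y := by
    have : 0 < y := hx.trans_le hxy
    positivity
  have h5 : 0 < y * R := mul_pos (hx.trans_le hxy) hR
  linarith

/-- (b) the numerical part of `Θ ≤ 1.1 R` -/
theorem num_theta {R U x L p : ℝ} (hR : 0 < R) (hU : 0 < U) (hUR : U ≤ R) (hx : 0 < x)
    (hx5 : 5 * x ≤ 0.1) (hp0 : 0 ≤ p) (hp : p ≤ 4 * R / U) (hL0 : 0 ≤ L) (hL : L ≤ U * x / 8) :
    R + (8 * p + 2) * L ≤ 1.1 * R := by
  have h3 : (8 * p + 2) * L ≤ (8 * (4 * R / U) + 2) * (U * x / 8) :=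
    mul_le_mul (by linarith) hL hL0 (by positivity)
  have h4 : (8 * (4 * R / U) + 2) * (U * x / 8) = 4 * R * x + U * x / 4 := by
    field_simp
    ring
  have h6 : U * x / 4 ≤ R * x := by
    have := mul_le_mul_of_nonneg_right hUR hx.le
    have : 0 ≤ R * x := by positivity
    linarith
  have h7 : 5 * R * x ≤ 0.1 * R := by
    have := mul_le_mul_of_nonneg_left hx5 hR.le
    linarith
  linarith

/-- the term with `Θ` in the absorption bound -/
theorem num_abs {C1 ε1 σ x y Θ R : ℝ} (h1 : 1 ≤ C1) (hσ : 0 < σ) (hy : 0 < y) (hyσ : y ≤ σ)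
    (hε1 : ε1 = C1 * x) (hx : 0 < x) (hxy : x ≤ y ^ 8 * y) (hΘ0 : 0 ≤ Θ) (hΘ : Θ ≤ 1.1 * R) :
    8 * (4 * ε1) / (σ ^ 4 / 4) ^ 2 * Θ ≤ 564 * (C1 * (R * y)) := by
  have h2 : y ^ 8 ≤ σ ^ 8 := pow_le_pow_left₀ hy.le hyσ 8
  have h3 : 8 * (4 * ε1) / (σ ^ 4 / 4) ^ 2 = 512 * ε1 / σ ^ 8 := by
    field_simp
    ring
  rw [h3]
  have h5 : 512 * ε1 / σ ^ 8 ≤ 512 * C1 * y := by
    rw [div_le_iff₀ (by positivity), hε1]
    calc 512 * (C1 * x) ≤ 512 * (C1 * (y ^ 8 * y)) := by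
          have := mul_le_mul_of_nonneg_left hxy (by linarith : (0 : ℝ) ≤ C1)
          linarith
      _ = 512 * C1 * y * y ^ 8 := by ring
      _ ≤ _ := mul_le_mul_of_nonneg_left h2 (by positivity)
  calc 512 * ε1 / σ ^ 8 * Θ ≤ 512 * C1 * y * (1.1 * R) :=
        mul_le_mul h5 hΘ hΘ0 (by positivity)
    _ ≤ 564 * (C1 * (R * y)) := by
        have hR : 0 ≤ R := by linarith
        have : 0 ≤ C1 * (R * y) := by positivity
        have e : 512 * C1 * y * (1.1 * R) = 563.2 * (C1 * (R * y)) := by ring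
        rw [e]; linarith

/-- the sum of the terms -/
theorem num_final {C1 R y B Θ P L T : ℝ} (hB : 20 * B ≤ 20 * (C1 * (R * y)))
    (hPL : 2 * P * L ≤ R * y) (hT : T ≤ 564 * (C1 * (R * y))) (h24 : 24 ≤ R * y)
    (h0 : 0 ≤ C1 * (R * y)) :
    Θ + 20 * (B + 1) + log 16 - Θ + 2 * P * L + T + log 2 ≤ (600 * C1 + 2) * y * R := by
  have t5 : log 16 + log 2 ≤ (4 : ℝ) := by
    have h1 : log (16 : ℝ) = 4 * log 2 := by
      rw [show (16 : ℝ) = 2 ^ 4 by norm_num, log_pow]; norm_num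
    rw [h1]
    have := log_two_lt_d9
    linarith
  have e2 : (600 * C1 + 2) * y * R = 600 * (C1 * (R * y)) + 2 * (R * y) := by ring
  rw [e2]
  linarith

/-! ## Assembly -/

/-- from the output of `Core` to the unit -/
theorem unit_of {G : Type} [AddCommGroup G] [Fintype G] {A : Finset (AddChar G ℂ)} {μ : G → ℝ}
    {σ R c C c' C1 : ℝ} (hJ : JLe) (lam : Law (AddChar G ℂ)) (m : ℕ)
    (hC1 : 1 ≤ C1) (hCC1 : C ≤ C1) (hR : 0 < R) (hX0 : 0 < log R) (hσ : 0 < σ) (hσ1 : σ ≤ 1)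
    (hyσ : (log R) ^ (-c') ≤ σ) (hxy : (log R) ^ (-c) ≤ (log R) ^ (-c'))
    (hxy8 : (log R) ^ (-c) ≤ ((log R) ^ (-c')) ^ 8 * (log R) ^ (-c'))
    (hL8 : log (8 / σ ^ 4) ≤ UU R * (log R) ^ (-c') / 8) (h24 : 24 ≤ R * (log R) ^ (-c'))
    (hμ : IsProb μ) (hA : ∀ a ∈ A, σ ≤ ‖∑ y, (μ y : ℂ) * a y‖)
    (hcost : lam.costLe A (C * R * (log R) ^ (-c))) (hm : (2 : ℝ) ^ m ≤ 4 * R / UU R)
    (hslope : lam.h (2 ^ m + 1) - lam.h (2 ^ m) ≤ C * (log R) ^ (-c))
    (hflat : lam.h (2 ^ m) ≤ lam.Theta (2 ^ m) + C * R * (log R) ^ (-c))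
    (hΘ : lam.Theta (2 ^ m) ≤ 1.1 * R) :
    ∃ (y0 : G) (ρ : G → ℝ), IsUnit12 A μ σ R ((600 * C1 + 2) * (log R) ^ (-c')) lam y0 ρ := by
  set x := (log R) ^ (-c) with hx
  set y := (log R) ^ (-c') with hy
  have hx0 : 0 < x := rpow_pos_of_pos hX0 _
  have hy0 : 0 < y := rpow_pos_of_pos hX0 _
  have hU0 : 0 < UU R := rpow_pos_of_pos hX0 _
  have haA : ∀ ω, lam.a ω ∈ A := fun ω => (hcost ω).1
  set P := 2 ^ m with hP
  have hPc : ((P : ℕ) : ℝ) = (2 : ℝ) ^ m := by rw [hP]; push_cast; rfl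
  have hB0 : 0 ≤ C1 * R * x := by positivity
  have hε0 : 0 < C1 * x := by positivity
  have hflat' : lam.h P ≤ lam.Theta P + C1 * R * x := by
    refine hflat.trans ?_
    have : C * R * x ≤ C1 * R * x :=
      mul_le_mul_of_nonneg_right (mul_le_mul_of_nonneg_right hCC1 hR.le) hx0.le
    linarith
  have hJ' : ∑ u : Fin P → lam.Lt, pw lam.beta u * lam.Jf (fun x => √(lam.pil P (lb lam.zl u) x))
      ≤ 2 * (C1 * x) := by
    refine (hJ G lam P).trans ?_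
    have : C * x ≤ C1 * x := mul_le_mul_of_nonneg_right hCC1 hx0.le
    linarith
  obtain ⟨ρ, hρ, hn, hd⟩ := lam.exists_noise P hB0 hε0 hflat' hJ'
  obtain ⟨y0, hy0'⟩ := lam.exists_shift_m hμ hσ.le fun ω => hA _ (haA ω)
  refine ⟨y0, ρ, ⟨hρ, ?_, ?_, hy0', ?_⟩⟩
  · -- cost
    intro ω
    obtain ⟨h1, h2⟩ := hcost ω
    exact ⟨h1, h2.trans (mul_le_mul_of_nonneg_right (exp_le_exp.mpr
      (num_cost hCC1 hC1 hR hx0 hxy)) (Pr_nonneg lam.prob _ _))⟩
  · -- noise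
    exact hn.trans (num_noise hC1 hxy hy0)
  · -- absorption
    intro ν hν hcar
    have h1 := absorb_le lam hρ hν P (s := σ ^ 4 / 4) (by positivity) y0 hcar hn hd
    refine h1.trans ?_
    have e1 : 2 / (σ ^ 4 / 4) = 8 / σ ^ 4 := by field_simp; norm_num
    rw [e1]
    have h3 : 0 ≤ log (8 / σ ^ 4) := log_nonneg (by
      rw [le_div_iff₀ (by positivity)]
      have : σ ^ 4 ≤ 1 := pow_le_one₀ hσ.le hσ1
      linarith)
    refine num_final ?_ ?_ ?_ h24 (by positivity)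
    · have := mul_le_mul_of_nonneg_left hxy (by positivity : (0 : ℝ) ≤ 20 * C1 * R)
      linarith
    · have h2 : (P : ℝ) ≤ 4 * R / UU R := by rw [hPc]; exact hm
      calc 2 * (P : ℝ) * log (8 / σ ^ 4) ≤ 2 * (4 * R / UU R) * (UU R * y / 8) :=
            mul_le_mul (by linarith) hL8 h3 (by positivity)
        _ = R * y := by field_simp; ring
    · exact num_abs hC1 hσ hy0 hyσ rfl hx0 hxy8 (Theta_nonneg lam P) hΘ

theorem adplus_of (hC : Core) (hJ : JLe) : ADplus := by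
  obtain ⟨c, C, R0, hc, hcore⟩ := hC
  set c' := min c 0.01 / 16 with hc'
  have hc'0 : 0 < c' := by
    have : 0 < min c 0.01 := lt_min hc (by norm_num)
    positivity
  have hc'1 : c' ≤ 0.001 := by
    have : min c 0.01 ≤ 0.01 := min_le_right _ _
    rw [hc']; linarith
  have hc'2 : 16 * c' ≤ c := by
    have : min c 0.01 ≤ c := min_le_left _ _
    rw [hc']; linarith
  set C1 := max C 1 with hC1
  have hC11 : 1 ≤ C1 := le_max_right _ _
  have hCC1 : C ≤ C1 := le_max_left _ _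
  obtain ⟨R1, hR1, hev⟩ := ev_facts hc'0 hc'1
  refine ⟨c', 600 * C1 + 2, max R0 R1, hc'0, by linarith, hR1.trans_le (le_max_right _ _), ?_⟩
  intro G _ _ A μ σ R hR hσ hAn hμ hdens hA
  obtain ⟨hX1, hX2, hX3, hX4⟩ := hev R ((le_max_right _ _).trans hR)
  have hRR0 : R0 ≤ R := (le_max_left _ _).trans hR
  clear_value c' C1
  clear hev
  set X := log R with hX
  have hX0 : 0 < X := by linarith
  have hR0 : 0 < R := by linarith
  have hXc : 0 < X ^ (-c') := rpow_pos_of_pos hX0 _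
  have hσ0 : 0 < σ := lt_of_lt_of_le hXc hσ
  -- `σ ≤ 1`
  have hσ1 : σ ≤ 1 := by
    obtain ⟨a, ha⟩ := hAn
    refine (hA a ha).trans ((norm_sum_le _ _).trans ?_)
    rw [← hμ.sum]
    refine sum_le_sum fun y _ => ?_
    rw [norm_mul, AddChar.norm_apply, mul_one, Complex.norm_real, Real.norm_of_nonneg (hμ.nonneg y)]
  have hlogσ : - log σ ≤ c' * log X := by
    have h1 := log_le_log hXc hσ
    rw [log_rpow hX0] at h1
    linarith
  have hlogX : 0 ≤ log X := log_nonneg hX1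
  have hlogX' : log X ≤ X := (log_le_sub_one_of_pos hX0).trans (by linarith)
  -- (a) the size of `A`
  have hcard : log (A.card : ℝ) ≤ 1.1 * R := by
    have h1 := card_biased_le hμ hσ0 hdens hA
    have h2 : (0 : ℝ) < A.card := by exact_mod_cast card_pos.mpr hAn
    have h3 := log_le_log (by positivity) h1
    rw [log_exp, log_mul h2.ne' (by positivity), log_pow] at h3
    have h5 : c' * log X ≤ 0.001 * X := by
      calc c' * log X ≤ 0.001 * log X := mul_le_mul_of_nonneg_right hc'1 hlogX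
        _ ≤ _ := by linarith
    push_cast at h3
    linarith
  -- the factor `log (8/σ⁴)`
  have hsplit : X ^ (0.01 - c') = UU R * X ^ (-c') := by
    have hUU : UU R = X ^ (0.01 : ℝ) := rfl
    rw [hUU, ← rpow_add hX0]; congr 1
  have hU0 : 0 < UU R := rpow_pos_of_pos hX0 _
  have hL8 : log (8 / σ ^ 4) ≤ UU R * X ^ (-c') / 8 := by
    have h1 : log (8 / σ ^ 4) = log 8 + 4 * (- log σ) := by
      rw [log_div (by norm_num) (by positivity), log_pow]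
      push_cast; ring
    rw [h1, ← hsplit]; linarith
  have hL2 : log (2 / σ) ≤ log (8 / σ ^ 4) := by
    refine log_le_log (by positivity) ?_
    rw [div_le_div_iff₀ hσ0 (by positivity)]
    have h1 : σ ^ 4 ≤ σ := by
      calc σ ^ 4 = σ * σ ^ 3 := by ring
        _ ≤ σ * 1 := mul_le_mul_of_nonneg_left (pow_le_one₀ hσ0.le hσ1) hσ0.le
        _ = σ := mul_one σ
    linarith
  have hL20 : 0 ≤ log (2 / σ) := log_nonneg (by rw [le_div_iff₀ hσ0]; linarith)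
  have hUR : UU R ≤ R := by
    calc UU R = X ^ (0.01 : ℝ) := rfl
      _ ≤ X ^ (1 : ℝ) := rpow_le_rpow_of_exponent_le hX1 (by norm_num)
      _ = X := rpow_one X
      _ ≤ R := by linarith
  -- (b) `Θ ≤ 1.1 R`
  have hTh : ∀ (lam : Law (AddChar G ℂ)) (p : ℕ), (∀ ω, lam.a ω ∈ A) → (p : ℝ) ≤ 4 * R / UU R →
      lam.Theta p ≤ 1.1 * R := fun lam p ha hp =>
    (lam.theta_le hμ hσ0 hdens hA ha p).trans
      (num_theta hR0 hU0 hUR hXc hX3 (Nat.cast_nonneg p) hp hL20 (hL2.trans hL8))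
  obtain ⟨lam, m, hcost, hm, hslope, hflat⟩ := hcore (AddChar G ℂ) A R hRR0 hAn hcard hTh
  have hPc : (((2 ^ m : ℕ)) : ℝ) = (2 : ℝ) ^ m := by push_cast; rfl
  have hΘ : lam.Theta (2 ^ m) ≤ 1.1 * R :=
    hTh lam (2 ^ m) (fun ω => (hcost ω).1) (by rw [hPc]; exact hm)
  have hxy : X ^ (-c) ≤ X ^ (-c') := rpow_le_rpow_of_exponent_le hX1 (by linarith)
  have hxy8 : X ^ (-c) ≤ (X ^ (-c')) ^ 8 * X ^ (-c') := by
    rw [← rpow_natCast, ← rpow_mul hX0.le, ← rpow_add hX0]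
    refine rpow_le_rpow_of_exponent_le hX1 ?_
    push_cast
    linarith
  have h24 : 24 ≤ R * X ^ (-c') := by
    have h2 : X ^ (c' : ℝ) ≤ X := by
      calc X ^ c' ≤ X ^ (1 : ℝ) := rpow_le_rpow_of_exponent_le hX1 (by linarith)
        _ = X := rpow_one X
    have h3 : 24 * X ^ c' ≤ R := by linarith
    rw [rpow_neg hX0.le, ← div_eq_mul_inv, le_div_iff₀ (rpow_pos_of_pos hX0 _)]
    exact h3
  obtain ⟨y0, ρ, hu⟩ := unit_of hJ lam m hC11 hCC1 hR0 hX0 hσ0 hσ1 hσ hxy hxy8 hL8 h24 hμ hA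
    hcost hm hslope hflat hΘ
  exact ⟨lam, y0, ρ, hu⟩

end Vale.Agent.P091.AD
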