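import Vale.Agent.P091.AD.H813.Final
import Vale.Agent.P091.AD.H134.Main
import Vale.Agent.P091.AD.H208.LocStep
import Vale.Agent.P091.AD.H356.Aff

/-!
# P091, block AD: approximate duality in every finite abelian group, unconditional (helper813)
-/

set_option autoImplicit false

open Finset Real
open Vale.Agent.P065.Ent

noncomputable section

namespace Vale.Agent.P091.AD

/-- 356's affinity bound in the form of `JLe` -/
theorem jle : JLe := fun _G _ _ lam P => H356.J_le lam P

/-- the output `(*)` of the AD block -/
theorem core : Core := H134.core_of_locStep H208.locStep

/-- **approximate duality** -/
theorem adplus : ADplus := adplus_of core jle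

end Vale.Agent.P091.AD
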