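import Vale.Agent.P091.AD.H813.Dual

/-!
# P091, block AD, row 12b, part 1: the noise of a function on the dual group (helper813)

`f ≥ 0` on `AddChar G ℂ`, `rho f t = |∑ f(x) x(t)|² / (|G| ∑ f²)`: a probability on `G`, of density
at most `|supp f|`, with `∑ rho (1 - m) = Jf f / (2 ∑ f²)`, `Jf f = E ∑_x (f(x-a) - f(x-a'))²`.
Krein: `|m(s+t) - m(s)|² ≤ 2 (1 - m(t))`.
-/

set_option autoImplicit false
set_option linter.unusedSectionVars false

open Finset Real
open Vale.Agent.P065.Ent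

noncomputable section

namespace Vale.Agent.P091.AD

section noise
variable {G : Type} [AddCommGroup G] [Fintype G]

/-- Fourier transform of a function on the dual group -/
def ft (f : AddChar G ℂ → ℝ) (t : G) : ℂ := ∑ x, (f x : ℂ) * x t

/-- the noise of `f` -/
def rho (f : AddChar G ℂ → ℝ) (t : G) : ℝ :=
  ‖ft f t‖ ^ 2 / ((Fintype.card G : ℝ) * ∑ x, f x ^ 2)

/-- the translate -/
theorem ft_shift (f : AddChar G ℂ → ℝ) (b : AddChar G ℂ) (t : G) :
    ft (fun x => f (x - b)) t = b t * ft f t := by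
  unfold ft
  rw [mul_sum]
  have e := (Equiv.subRight b).symm.sum_comp (fun x : AddChar G ℂ => ((f (x - b) : ℝ) : ℂ) * x t)
  rw [← e]
  refine sum_congr rfl fun x _ => ?_
  have e2 : (Equiv.subRight b).symm x - b = x := by simp
  rw [e2]
  show (f x : ℂ) * (x + b) t = _
  rw [AddChar.add_apply]
  ring

/-- Parseval, bilinear form -/
theorem sum_ft_mul_conj (f g : AddChar G ℂ → ℝ) :
    ∑ t, ft f t * (starRingEnd ℂ) (ft g t) = (Fintype.card G : ℂ) * ((∑ x, f x * g x : ℝ) : ℂ) := by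
  classical
  have h1 : ∀ t, ft f t * (starRingEnd ℂ) (ft g t)
      = ∑ x, ∑ y, ((f x : ℂ) * (g y : ℂ)) * (x - y) t := by
    intro t
    unfold ft
    rw [map_sum, sum_mul_sum]
    refine sum_congr rfl fun x _ => sum_congr rfl fun y _ => ?_
    rw [map_mul, Complex.conj_ofReal, Law.conj_char, AddChar.sub_apply]
    ring
  rw [sum_congr rfl fun t _ => h1 t, sum_comm]
  push_cast
  rw [mul_sum]
  refine sum_congr rfl fun x _ => ?_
  rw [sum_comm]
  rw [sum_eq_single x]
  · rw [← mul_sum, sub_self, sum_char, if_pos rfl]; ring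
  · intro y _ hy
    rw [← mul_sum, sum_char, if_neg (sub_ne_zero.mpr hy.symm), mul_zero]
  · intro h
    exact absurd (mem_univ x) h

/-- Parseval -/
theorem sum_norm_ft (f : AddChar G ℂ → ℝ) :
    ∑ t, ‖ft f t‖ ^ 2 = (Fintype.card G : ℝ) * ∑ x, f x ^ 2 := by
  have h := sum_ft_mul_conj f f
  have h1 : ((∑ t, ‖ft f t‖ ^ 2 : ℝ) : ℂ) = (((Fintype.card G : ℝ) * ∑ x, f x ^ 2 : ℝ) : ℂ) := by
    push_cast at h ⊢
    rw [← sum_congr rfl fun t _ => show ft f t * (starRingEnd ℂ) (ft f t) = (‖ft f t‖ : ℂ) ^ 2 by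
      rw [Complex.mul_conj, Complex.normSq_eq_norm_sq]; push_cast; rfl, h]
    congr 1
    exact sum_congr rfl fun x _ => by ring
  exact_mod_cast h1

theorem rho_isProb {f : AddChar G ℂ → ℝ} (hF : 0 < ∑ x, f x ^ 2) : IsProb (rho f) := by
  have hG := card_pos' (G := G)
  refine ⟨fun t => by unfold rho; positivity, ?_⟩
  unfold rho
  rw [← sum_div, sum_norm_ft, div_self (by positivity)]

/-- the density of the noise is at most the size of the support -/
theorem rho_le {f : AddChar G ℂ → ℝ} (hF : 0 < ∑ x, f x ^ 2) (s : Finset (AddChar G ℂ))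
    (hs : ∀ x, x ∉ s → f x = 0) (t : G) : (Fintype.card G : ℝ) * rho f t ≤ s.card := by
  have hG := card_pos' (G := G)
  unfold rho
  rw [mul_div_assoc', mul_div_mul_left _ _ hG.ne', div_le_iff₀ hF]
  have h1 : ‖ft f t‖ ≤ ∑ x ∈ s, |f x| := by
    unfold ft
    have : ∑ x, (f x : ℂ) * x t = ∑ x ∈ s, (f x : ℂ) * x t :=
      (sum_subset (subset_univ s) fun x _ hx => by rw [hs x hx]; simp).symm
    rw [this]
    refine (norm_sum_le _ _).trans (sum_le_sum fun x _ => ?_)
    rw [norm_mul, AddChar.norm_apply, mul_one, Complex.norm_real, Real.norm_eq_abs]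
  have h2 : (∑ x ∈ s, |f x|) ^ 2 ≤ s.card * ∑ x ∈ s, |f x| ^ 2 := sq_sum_le_card_mul_sum_sq
  have h3 : ∑ x ∈ s, |f x| ^ 2 ≤ ∑ x, f x ^ 2 := by
    calc ∑ x ∈ s, |f x| ^ 2 = ∑ x ∈ s, f x ^ 2 := sum_congr rfl fun x _ => sq_abs _
      _ ≤ _ := sum_le_sum_of_subset_of_nonneg (subset_univ s) fun x _ _ => sq_nonneg _
  calc ‖ft f t‖ ^ 2 ≤ (∑ x ∈ s, |f x|) ^ 2 := pow_le_pow_left₀ (norm_nonneg _) h1 2
    _ ≤ _ := h2.trans (mul_le_mul_of_nonneg_left h3 (Nat.cast_nonneg _))

namespace Law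
variable (lam : Law (AddChar G ℂ))

/-- the increment energy of `g` -/
def Jf (g : AddChar G ℂ → ℝ) : ℝ :=
  ∑ v : lam.Lt, lam.beta v * ∑ x, (g (x - lam.a v.1) - g (x - lam.a v.2)) ^ 2

theorem Jf_nonneg (g : AddChar G ℂ → ℝ) : 0 ≤ lam.Jf g :=
  sum_nonneg fun v _ => mul_nonneg (lam.beta_isProb.nonneg v) (sum_nonneg fun x _ => sq_nonneg _)

/-- `m(t)` as a real sum -/
theorem m_eq (t : G) : lam.m t = ∑ v, lam.beta v * (lam.N v t).re := by
  have h := lam.sum_beta_N t
  have h1 := congrArg Complex.re h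
  rw [Complex.ofReal_re, Complex.re_sum] at h1
  rw [← h1]
  refine sum_congr rfl fun v _ => ?_
  rw [Complex.re_ofReal_mul]

/-- `∑ rho (1 - m) = Jf f / (2 ∑ f²)` -/
theorem sum_rho_one_sub_m {f : AddChar G ℂ → ℝ} (hF : 0 < ∑ x, f x ^ 2) :
    ∑ t, rho f t * (1 - lam.m t) = lam.Jf f / (2 * ∑ x, f x ^ 2) := by
  have hG := card_pos' (G := G)
  -- one letter
  have h1 : ∀ v : lam.Lt, ∑ t, rho f t * (1 - (lam.N v t).re)
      = (∑ x, (f (x - lam.a v.1) - f (x - lam.a v.2)) ^ 2) / (2 * ∑ x, f x ^ 2) := by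
    intro v
    have e1 := sum_ft_mul_conj (fun x => f (x - lam.a v.1)) (fun x => f (x - lam.a v.2))
    have e2 : ∀ t, ft (fun x => f (x - lam.a v.1)) t * (starRingEnd ℂ)
        (ft (fun x => f (x - lam.a v.2)) t) = ((‖ft f t‖ ^ 2 : ℝ) : ℂ) * lam.N v t := by
      intro t
      rw [ft_shift, ft_shift, map_mul]
      have : lam.N v t = lam.a v.1 t * (starRingEnd ℂ) (lam.a v.2 t) := by
        unfold N
        rw [AddChar.sub_apply, conj_char]
      rw [this]
      have e3 : ((‖ft f t‖ ^ 2 : ℝ) : ℂ) = ft f t * (starRingEnd ℂ) (ft f t) := by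
        rw [Complex.mul_conj, Complex.normSq_eq_norm_sq]
      rw [e3]; ring
    rw [sum_congr rfl fun t _ => e2 t] at e1
    have e4 := congrArg Complex.re e1
    rw [Complex.re_sum, sum_congr rfl fun t _ => Complex.re_ofReal_mul _ _] at e4
    have e5 : ((Fintype.card G : ℂ) * ((∑ x, f (x - lam.a v.1) * f (x - lam.a v.2) : ℝ) : ℂ)).re
        = (Fintype.card G : ℝ) * ∑ x, f (x - lam.a v.1) * f (x - lam.a v.2) := by
      rw [← Complex.ofReal_natCast, ← Complex.ofReal_mul, Complex.ofReal_re]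
    rw [e5] at e4
    have e6 : ∀ b : AddChar G ℂ, ∑ x, f (x - b) ^ 2 = ∑ x, f x ^ 2 := fun b =>
      (Equiv.subRight b).sum_comp (fun x => f x ^ 2)
    have e7 : ∑ x, (f (x - lam.a v.1) - f (x - lam.a v.2)) ^ 2
        = 2 * ∑ x, f x ^ 2 - 2 * ∑ x, f (x - lam.a v.1) * f (x - lam.a v.2) := by
      have : ∀ x, (f (x - lam.a v.1) - f (x - lam.a v.2)) ^ 2 = f (x - lam.a v.1) ^ 2
        + f (x - lam.a v.2) ^ 2 - 2 * (f (x - lam.a v.1) * f (x - lam.a v.2)) := fun x => by ring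
      rw [sum_congr rfl fun x _ => this x, sum_sub_distrib, sum_add_distrib, e6, e6, ← mul_sum]
      ring
    have e8 : ∑ t, rho f t * (1 - (lam.N v t).re) = (∑ t, rho f t)
        - (∑ t, ‖ft f t‖ ^ 2 * (lam.N v t).re) / ((Fintype.card G : ℝ) * ∑ x, f x ^ 2) := by
      rw [sum_div, ← sum_sub_distrib]
      refine sum_congr rfl fun t _ => ?_
      unfold rho
      ring
    rw [e8, (rho_isProb hF).sum, e4, e7, mul_div_mul_left _ _ hG.ne']
    field_simp
  have h2 : ∀ t, rho f t * (1 - lam.m t) = ∑ v, lam.beta v * (rho f t * (1 - (lam.N v t).re)) := by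
    intro t
    rw [lam.m_eq]
    have : ∀ v, lam.beta v * (rho f t * (1 - (lam.N v t).re))
        = lam.beta v * rho f t - rho f t * (lam.beta v * (lam.N v t).re) := fun v => by ring
    rw [sum_congr rfl fun v _ => this v, sum_sub_distrib, ← sum_mul, ← mul_sum,
      lam.beta_isProb.sum]
    ring
  rw [sum_congr rfl fun t _ => h2 t, sum_comm]
  unfold Jf
  rw [sum_div]
  refine sum_congr rfl fun v _ => ?_
  rw [← mul_sum, h1 v]
  ring

/-- **Krein's inequality** -/
theorem krein (s t : G) : (lam.m (s + t) - lam.m s) ^ 2 ≤ 2 * (1 - lam.m t) := by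
  have h1 : |lam.m (s + t) - lam.m s| ≤ ∑ v, √(lam.beta v) * (√(lam.beta v) * ‖lam.N v t - 1‖) := by
    rw [lam.m_eq, lam.m_eq, ← sum_sub_distrib]
    refine (abs_sum_le_sum_abs _ _).trans (sum_le_sum fun v _ => ?_)
    rw [← mul_assoc, Real.mul_self_sqrt (lam.beta_isProb.nonneg v), ← mul_sub, abs_mul,
      abs_of_nonneg (lam.beta_isProb.nonneg v)]
    refine mul_le_mul_of_nonneg_left ?_ (lam.beta_isProb.nonneg v)
    rw [← Complex.sub_re, AddChar.map_add_eq_mul]
    refine (Complex.abs_re_le_norm _).trans ?_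
    have : lam.N v s * lam.N v t - lam.N v s = lam.N v s * (lam.N v t - 1) := by ring
    rw [this, norm_mul, AddChar.norm_apply, one_mul]
  have h2 := sum_mul_sq_le_sq_mul_sq univ (fun v => √(lam.beta v))
    (fun v => √(lam.beta v) * ‖lam.N v t - 1‖)
  have h3 : ∑ v, √(lam.beta v) ^ 2 = 1 := by
    rw [← lam.beta_isProb.sum]
    exact sum_congr rfl fun v _ => sq_sqrt (lam.beta_isProb.nonneg v)
  have h4 : ∑ v, (√(lam.beta v) * ‖lam.N v t - 1‖) ^ 2 = 2 * (1 - lam.m t) := by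
    have h5 : ∀ v, (√(lam.beta v) * ‖lam.N v t - 1‖) ^ 2
        = 2 * lam.beta v - 2 * (lam.beta v * (lam.N v t).re) := by
      intro v
      rw [mul_pow, sq_sqrt (lam.beta_isProb.nonneg v)]
      have h6 : ‖lam.N v t - 1‖ ^ 2 = 2 - 2 * (lam.N v t).re := by
        have h7 : ‖lam.N v t‖ = 1 := AddChar.norm_apply _ _
        have h8 : (lam.N v t).re ^ 2 + (lam.N v t).im ^ 2 = 1 := by
          have := Complex.sq_norm (lam.N v t)
          rw [h7, Complex.normSq_apply] at this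
          nlinarith
        rw [Complex.sq_norm, Complex.normSq_apply]
        simp only [Complex.sub_re, Complex.one_re, Complex.sub_im, Complex.one_im, sub_zero]
        nlinarith
      rw [h6]; ring
    rw [sum_congr rfl fun v _ => h5 v, sum_sub_distrib, ← mul_sum, ← mul_sum,
      lam.beta_isProb.sum, ← lam.m_eq]
    ring
  rw [h3, h4, one_mul] at h2
  rw [← sq_abs]
  exact (pow_le_pow_left₀ (abs_nonneg _) h1 2).trans h2

end Law

end noise

end Vale.Agent.P091.AD
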